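import Mathlib

/-!
Definitions for P034 (integral versus fractional expectation thresholds), following the
problem file: `X` is a finite ground set, `F` a family of subsets of `X`.
-/

namespace Vale.Agent.Lib.P034

variable {X : Type*} [Fintype X] [DecidableEq X]

/-- `g` is a fractional cover of the family `F`: `g` takes values in `[0,1]` and
`∑_{S ⊆ H} g S ≥ 1` for every member `H` of `F`. -/
def IsFracCover (F : Finset (Finset X)) (g : Finset X → ℝ) : Prop :=
  (∀ S, 0 ≤ g S ∧ g S ≤ 1) ∧ ∀ H ∈ F, 1 ≤ ∑ S ∈ H.powerset, g S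

/-- The cost `w(g,p) = ∑_{S ⊆ X} g S * p^|S|` of `g` at `p` (with `p^0 = 1`). -/
def fracCost (g : Finset X → ℝ) (p : ℝ) : ℝ :=
  ∑ S : Finset X, g S * p ^ S.card

/-- `F` is `p`-small: some family `G` covers `F` (every member of `F` contains a member
of `G`) and has cost `∑_{S ∈ G} p^|S| ≤ 1/2` (with `p^0 = 1`). -/
def IsSmall (F : Finset (Finset X)) (p : ℝ) : Prop :=
  ∃ G : Finset (Finset X), (∀ H ∈ F, ∃ S ∈ G, S ⊆ H) ∧ ∑ S ∈ G, p ^ S.card ≤ 1 / 2

end Vale.Agent.Lib.P034
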