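import Mathlib

/-!
Weighted covering lemma behind the hand-ins of P034.
-/

namespace Vale.Agent.Lib.P034

open Finset

lemma pow_succ_add_le (P z : ℝ) (hP : 0 ≤ P) (hz : 0 ≤ z) (n : ℕ) :
    P ^ (n + 1) + (n + 1) * z * P ^ n ≤ (P + z) ^ (n + 1) := by
  induction n with
  | zero => simp
  | succ n ih =>
    have h1 : (P + z) ^ (n + 1 + 1) = (P + z) * (P + z) ^ (n + 1) := by ring
    have h2 : (P + z) * (P ^ (n + 1) + (n + 1) * z * P ^ n) ≤ (P + z) * (P + z) ^ (n + 1) :=
      mul_le_mul_of_nonneg_left ih (by positivity)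
    have h3 : 0 ≤ (n + 1) * z ^ 2 * P ^ n := by positivity
    rw [h1]
    push_cast
    have h4 : P ^ (n + 1 + 1) + ((n : ℝ) + 1 + 1) * z * P ^ (n + 1)
        = (P + z) * (P ^ (n + 1) + (n + 1) * z * P ^ n) - (n + 1) * z ^ 2 * P ^ n := by ring
    linarith

lemma esymm_le {ι : Type*} [DecidableEq ι] (z : ι → ℝ) (W : Finset ι) :
    (∀ i ∈ W, 0 ≤ z i) →
    ∀ r : ℕ, ∑ T ∈ W.powersetCard r, ∏ i ∈ T, z i ≤ (∑ i ∈ W, z i) ^ r / r.factorial := by
  induction W using Finset.induction_on with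
  | empty =>
    intro _ r
    cases r with
    | zero => simp
    | succ r =>
      have h : powersetCard (r + 1) (∅ : Finset ι) = ∅ := by
        rw [powersetCard_eq_empty]; simp
      rw [h]; simp
  | insert a W ha ih =>
    intro hz r
    have hzW : ∀ i ∈ W, 0 ≤ z i := fun i hi => hz i (mem_insert_of_mem hi)
    have hza : 0 ≤ z a := hz a (mem_insert_self a W)
    have hP : 0 ≤ ∑ i ∈ W, z i := sum_nonneg hzW
    cases r with
    | zero => simp
    | succ r =>
      have hdisj : Disjoint (powersetCard (r + 1) W) (image (insert a) (powersetCard r W)) := by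
        rw [Finset.disjoint_left]
        intro T hT hT'
        rw [mem_powersetCard] at hT
        rw [mem_image] at hT'
        obtain ⟨U, _, rfl⟩ := hT'
        exact ha (hT.1 (mem_insert_self a U))
      have hinj : ∀ T ∈ powersetCard r W, ∀ U ∈ powersetCard r W,
          insert a T = insert a U → T = U := by
        intro T hT U hU h
        rw [mem_powersetCard] at hT hU
        have haT : a ∉ T := fun h' => ha (hT.1 h')
        have haU : a ∉ U := fun h' => ha (hU.1 h')
        rw [← erase_insert haT, ← erase_insert haU, h]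
      rw [powersetCard_succ_insert ha, sum_union hdisj, sum_image hinj]
      have h1 : ∑ T ∈ powersetCard r W, ∏ i ∈ insert a T, z i
          = z a * ∑ T ∈ powersetCard r W, ∏ i ∈ T, z i := by
        rw [mul_sum]
        apply sum_congr rfl
        intro T hT
        rw [mem_powersetCard] at hT
        rw [prod_insert (fun h' => ha (hT.1 h'))]
      rw [h1, sum_insert ha]
      have e1 := ih hzW (r + 1)
      have e2 := ih hzW r
      have e3 : z a * ∑ T ∈ powersetCard r W, ∏ i ∈ T, z i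
          ≤ z a * ((∑ i ∈ W, z i) ^ r / r.factorial) := mul_le_mul_of_nonneg_left e2 hza
      have e4 := pow_succ_add_le (∑ i ∈ W, z i) (z a) hP hza r
      have hf : ((r + 1).factorial : ℝ) = (r + 1) * r.factorial := by
        rw [Nat.factorial_succ]; push_cast; ring
      have hfpos : (0 : ℝ) < r.factorial := by exact_mod_cast Nat.factorial_pos r
      have e5 : (∑ i ∈ W, z i) ^ (r + 1) / ((r + 1).factorial : ℝ)
          + z a * ((∑ i ∈ W, z i) ^ r / r.factorial)
          = ((∑ i ∈ W, z i) ^ (r + 1) + (r + 1) * z a * (∑ i ∈ W, z i) ^ r)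
            / ((r + 1).factorial : ℝ) := by
        rw [hf]; field_simp
      have e6 : ((∑ i ∈ W, z i) ^ (r + 1) + (r + 1) * z a * (∑ i ∈ W, z i) ^ r)
            / ((r + 1).factorial : ℝ)
          ≤ (z a + ∑ i ∈ W, z i) ^ (r + 1) / ((r + 1).factorial : ℝ) := by
        apply div_le_div_of_nonneg_right _ (by positivity)
        rw [add_comm (z a)]
        exact e4
      linarith

lemma sum_succ_mul_half_pow (n : ℕ) :
    ∑ j ∈ range n, ((j : ℝ) + 1) * (1 / 2 : ℝ) ^ j = 4 - 2 * (n + 2) * (1 / 2 : ℝ) ^ n := by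
  induction n with
  | zero => norm_num
  | succ n ih =>
    rw [sum_range_succ, ih]
    push_cast
    ring

lemma sum_succ_mul_half_pow_lt (n : ℕ) :
    ∑ j ∈ range n, ((j : ℝ) + 1) * (1 / 2 : ℝ) ^ j < 4 := by
  rw [sum_succ_mul_half_pow]
  have : (0 : ℝ) < 2 * (n + 2) * (1 / 2 : ℝ) ^ n := by positivity
  linarith

/-- The dyadic level of a positive real `x ≤ 1`: the `j` with `(1/2)^(j+1) < x ≤ (1/2)^j`. -/
noncomputable def lev (x : ℝ) : ℕ :=
  open Classical in
  if h : ∃ j : ℕ, (1 / 2 : ℝ) ^ (j + 1) < x then Nat.find h else 0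

lemma lev_spec (x : ℝ) (h0 : 0 < x) (h1 : x ≤ 1) :
    (1 / 2 : ℝ) ^ (lev x + 1) < x ∧ x ≤ (1 / 2 : ℝ) ^ (lev x) := by
  classical
  have hex : ∃ j : ℕ, (1 / 2 : ℝ) ^ (j + 1) < x := by
    obtain ⟨n, hn⟩ := exists_pow_lt_of_lt_one h0 (by norm_num : (1 / 2 : ℝ) < 1)
    refine ⟨n, lt_of_le_of_lt ?_ hn⟩
    rw [pow_succ]
    have : (0 : ℝ) ≤ (1 / 2 : ℝ) ^ n := by positivity
    linarith
  have hlev : lev x = Nat.find hex := by
    unfold lev
    rw [dif_pos hex]
  refine ⟨?_, ?_⟩
  · rw [hlev]; exact Nat.find_spec hex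
  · rw [hlev]
    rcases Nat.eq_zero_or_pos (Nat.find hex) with h | h
    · rw [h]; simpa using h1
    · have := Nat.find_min hex (Nat.sub_lt h Nat.one_pos)
      rw [Nat.sub_add_cancel h] at this
      exact not_lt.mp this

lemma pow_self_le_exp_mul_factorial (r : ℕ) : (r : ℝ) ^ r ≤ Real.exp r * r.factorial := by
  have h := Real.pow_div_factorial_le_exp (r : ℝ) (Nat.cast_nonneg r) r
  have hfpos : (0 : ℝ) < r.factorial := by exact_mod_cast Nat.factorial_pos r
  rwa [div_le_iff₀ hfpos] at h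

lemma level_cost_bound (P : ℝ) (r j : ℕ) (hP : 0 ≤ P) (hPr : P ≤ 2 * r) (hrj : j + 2 ≤ 8 * r) :
    (P / 1536) ^ r / r.factorial ≤ (1 / 2 : ℝ) ^ (j + 2) := by
  have hfpos : (0 : ℝ) < r.factorial := by exact_mod_cast Nat.factorial_pos r
  have he : Real.exp 1 ≤ 3 := by
    have := Real.exp_one_lt_d9
    linarith
  have h1 : (P / 1536) ^ r ≤ (2 * r / 1536 : ℝ) ^ r := by
    apply pow_le_pow_left₀ (by positivity)
    linarith
  have h2 : (2 * r / 1536 : ℝ) ^ r = (2 / 1536 : ℝ) ^ r * (r : ℝ) ^ r := by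
    rw [← mul_pow]; congr 1; ring
  have h3 : (r : ℝ) ^ r ≤ (3 : ℝ) ^ r * r.factorial := by
    have := pow_self_le_exp_mul_factorial r
    have h4 : Real.exp r ≤ (3 : ℝ) ^ r := by
      have : Real.exp (r : ℝ) = Real.exp 1 ^ r := by
        rw [← Real.exp_nat_mul]; simp
      rw [this]
      exact pow_le_pow_left₀ (Real.exp_pos 1).le he r
    calc (r : ℝ) ^ r ≤ Real.exp r * r.factorial := this
      _ ≤ (3 : ℝ) ^ r * r.factorial := mul_le_mul_of_nonneg_right h4 hfpos.le
  have h5 : (P / 1536) ^ r ≤ (1 / 256 : ℝ) ^ r * r.factorial := by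
    calc (P / 1536) ^ r ≤ (2 / 1536 : ℝ) ^ r * (r : ℝ) ^ r := by rw [← h2]; exact h1
      _ ≤ (2 / 1536 : ℝ) ^ r * ((3 : ℝ) ^ r * r.factorial) :=
          mul_le_mul_of_nonneg_left h3 (by positivity)
      _ = (1 / 256 : ℝ) ^ r * r.factorial := by
          rw [← mul_assoc, ← mul_pow]; norm_num
  have h6 : (P / 1536) ^ r / r.factorial ≤ (1 / 256 : ℝ) ^ r := by
    rw [div_le_iff₀ hfpos]; exact h5
  have h7 : (1 / 256 : ℝ) ^ r = (1 / 2 : ℝ) ^ (8 * r) := by
    rw [pow_mul]; norm_num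
  rw [h7] at h6
  exact h6.trans (pow_le_pow_of_le_one (by norm_num) (by norm_num) hrj)

/-- **Core covering lemma.** Indices `i ∈ 𝒮` carry weights `w i ∈ [0,1]` and costs `y i ≥ 0`
with `∑ w i * y i ≤ 1/2`.  Then there is a family `𝒢` of subsets of `𝒮` such that every
`I ⊆ 𝒮` of total weight at least `1` contains a member of `𝒢`, while
`∑_{T ∈ 𝒢} ∏_{i ∈ T} (y i / 1536) ≤ 1/2`. -/
theorem packing_core {ι : Type*} [DecidableEq ι] (𝒮 : Finset ι) (w y : ι → ℝ)
    (hw0 : ∀ i ∈ 𝒮, 0 ≤ w i) (hw1 : ∀ i ∈ 𝒮, w i ≤ 1) (hy : ∀ i ∈ 𝒮, 0 ≤ y i)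
    (hcost : ∑ i ∈ 𝒮, w i * y i ≤ 1 / 2) :
    ∃ 𝒢 : Finset (Finset ι),
      (∀ T ∈ 𝒢, T ⊆ 𝒮) ∧
      (∀ I ⊆ 𝒮, 1 ≤ ∑ i ∈ I, w i → ∃ T ∈ 𝒢, T ⊆ I) ∧
      ∑ T ∈ 𝒢, ∏ i ∈ T, (y i / 1536) ≤ 1 / 2 := by
  classical
  set Sp : Finset ι := 𝒮.filter (fun i => 0 < w i) with hSp
  set J : ℕ := Sp.sup (fun i => lev (w i)) with hJ
  set W : ℕ → Finset ι := fun j => Sp.filter (fun i => lev (w i) = j) with hW
  set P : ℕ → ℝ := fun j => ∑ i ∈ W j, y i with hPdef
  set ρ : ℕ → ℝ := fun j => P j / 2 + ((j : ℝ) + 1) / 8 with hρ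
  set r : ℕ → ℕ := fun j => ⌊ρ j⌋₊ + 1 with hr
  have hSpS : Sp ⊆ 𝒮 := filter_subset _ _
  have hWS : ∀ j, W j ⊆ 𝒮 := fun j => (filter_subset _ _).trans hSpS
  have hP0 : ∀ j, 0 ≤ P j := fun j => sum_nonneg (fun i hi => hy i (hWS j hi))
  have hρ0 : ∀ j, 0 ≤ ρ j := by
    intro j
    have := hP0 j
    simp only [hρ]
    positivity
  have hmaps : ∀ i ∈ Sp, lev (w i) ∈ range (J + 1) := by
    intro i hi
    rw [mem_range, Nat.lt_succ_iff]
    exact Finset.le_sup (f := fun i => lev (w i)) hi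
  -- weights in level `j` are in `((1/2)^(j+1), (1/2)^j]`
  have hlevW : ∀ j, ∀ i ∈ W j, (1 / 2 : ℝ) ^ (j + 1) < w i ∧ w i ≤ (1 / 2 : ℝ) ^ j := by
    intro j i hi
    simp only [hW, hSp, mem_filter] at hi
    obtain ⟨⟨hiS, hpos⟩, hlev⟩ := hi
    have := lev_spec (w i) hpos (hw1 i hiS)
    rw [hlev] at this
    exact this
  -- total cost bound at the levels
  have hPsum : ∑ j ∈ range (J + 1), P j * (1 / 2 : ℝ) ^ j ≤ 1 := by
    have h1 : ∀ j ∈ range (J + 1), P j * (1 / 2 : ℝ) ^ j ≤ ∑ i ∈ W j, 2 * (w i * y i) := by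
      intro j _
      simp only [hPdef]
      rw [sum_mul]
      apply sum_le_sum
      intro i hi
      have hlt := (hlevW j i hi).1
      have hyi := hy i (hWS j hi)
      have : (1 / 2 : ℝ) ^ j = 2 * (1 / 2 : ℝ) ^ (j + 1) := by rw [pow_succ]; ring
      rw [this]
      nlinarith
    have h2 : ∑ j ∈ range (J + 1), ∑ i ∈ W j, 2 * (w i * y i) = ∑ i ∈ Sp, 2 * (w i * y i) :=
      sum_fiberwise_of_maps_to hmaps _
    have h3 : ∑ i ∈ Sp, 2 * (w i * y i) ≤ ∑ i ∈ 𝒮, 2 * (w i * y i) :=
      sum_le_sum_of_subset_of_nonneg hSpS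
        (fun i hi _ => by have := hw0 i hi; have := hy i hi; positivity)
    have h4 : ∑ i ∈ 𝒮, 2 * (w i * y i) = 2 * ∑ i ∈ 𝒮, w i * y i := by rw [mul_sum]
    calc ∑ j ∈ range (J + 1), P j * (1 / 2 : ℝ) ^ j
        ≤ ∑ j ∈ range (J + 1), ∑ i ∈ W j, 2 * (w i * y i) := sum_le_sum h1
      _ = ∑ i ∈ Sp, 2 * (w i * y i) := h2
      _ ≤ ∑ i ∈ 𝒮, 2 * (w i * y i) := h3
      _ = 2 * ∑ i ∈ 𝒮, w i * y i := h4
      _ ≤ 1 := by linarith
  have hρsum : ∑ j ∈ range (J + 1), ρ j * (1 / 2 : ℝ) ^ j < 1 := by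
    have h1 : ∑ j ∈ range (J + 1), ρ j * (1 / 2 : ℝ) ^ j
        = (1 / 2) * ∑ j ∈ range (J + 1), P j * (1 / 2 : ℝ) ^ j
          + (1 / 8) * ∑ j ∈ range (J + 1), ((j : ℝ) + 1) * (1 / 2 : ℝ) ^ j := by
      rw [mul_sum, mul_sum, ← sum_add_distrib]
      apply sum_congr rfl
      intro j _
      simp only [hρ]
      ring
    have h2 := sum_succ_mul_half_pow_lt (J + 1)
    rw [h1]
    linarith
  refine ⟨(range (J + 1)).biUnion (fun j => (W j).powersetCard (r j)), ?_, ?_, ?_⟩
  · intro T hT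
    rw [mem_biUnion] at hT
    obtain ⟨j, _, hT⟩ := hT
    rw [mem_powersetCard] at hT
    exact hT.1.trans (hWS j)
  · intro I hI hIw
    by_contra hcon
    push Not at hcon
    set Ip : Finset ι := I.filter (fun i => 0 < w i) with hIp
    have hIpSp : Ip ⊆ Sp := by
      intro i hi
      simp only [hIp, mem_filter] at hi
      simp only [hSp, mem_filter]
      exact ⟨hI hi.1, hi.2⟩
    have hcard : ∀ j ∈ range (J + 1),
        ((Ip.filter (fun i => lev (w i) = j)).card : ℝ) ≤ ρ j := by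
      intro j hj
      have hsub : Ip.filter (fun i => lev (w i) = j) ⊆ W j := by
        intro i hi
        rw [mem_filter] at hi
        simp only [hW, mem_filter]
        exact ⟨hIpSp hi.1, hi.2⟩
      have hlt : (Ip.filter (fun i => lev (w i) = j)).card < r j := by
        by_contra hge
        push Not at hge
        obtain ⟨T, hTsub, hTcard⟩ := exists_subset_card_eq hge
        have hTG : T ∈ (range (J + 1)).biUnion (fun j => (W j).powersetCard (r j)) := by
          rw [mem_biUnion]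
          exact ⟨j, hj, mem_powersetCard.mpr ⟨hTsub.trans hsub, hTcard⟩⟩
        apply hcon T hTG
        intro i hi
        have := hTsub hi
        rw [mem_filter] at this
        have := this.1
        simp only [hIp, mem_filter] at this
        exact this.1
      have hle : (Ip.filter (fun i => lev (w i) = j)).card ≤ ⌊ρ j⌋₊ := by
        simp only [hr] at hlt
        omega
      calc ((Ip.filter (fun i => lev (w i) = j)).card : ℝ) ≤ (⌊ρ j⌋₊ : ℝ) := by exact_mod_cast hle
        _ ≤ ρ j := Nat.floor_le (hρ0 j)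
    have hI1 : ∑ i ∈ I, w i = ∑ i ∈ Ip, w i := by
      symm
      apply sum_subset (filter_subset _ _)
      intro i hi hni
      simp only [mem_filter, not_and] at hni
      have h0 := hw0 i (hI hi)
      have := hni hi
      linarith
    have hI2 : ∑ i ∈ Ip, w i
        = ∑ j ∈ range (J + 1), ∑ i ∈ Ip.filter (fun i => lev (w i) = j), w i :=
      (sum_fiberwise_of_maps_to (fun i hi => hmaps i (hIpSp hi)) _).symm
    have hI3 : ∀ j ∈ range (J + 1), ∑ i ∈ Ip.filter (fun i => lev (w i) = j), w i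
        ≤ ρ j * (1 / 2 : ℝ) ^ j := by
      intro j hj
      have hsub : Ip.filter (fun i => lev (w i) = j) ⊆ W j := by
        intro i hi
        rw [mem_filter] at hi
        simp only [hW, mem_filter]
        exact ⟨hIpSp hi.1, hi.2⟩
      calc ∑ i ∈ Ip.filter (fun i => lev (w i) = j), w i
          ≤ ∑ _i ∈ Ip.filter (fun i => lev (w i) = j), (1 / 2 : ℝ) ^ j :=
            sum_le_sum (fun i hi => (hlevW j i (hsub hi)).2)
        _ = ((Ip.filter (fun i => lev (w i) = j)).card : ℝ) * (1 / 2 : ℝ) ^ j := by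
            rw [sum_const, nsmul_eq_mul]
        _ ≤ ρ j * (1 / 2 : ℝ) ^ j :=
            mul_le_mul_of_nonneg_right (hcard j hj) (by positivity)
    have : ∑ i ∈ I, w i < 1 := by
      rw [hI1, hI2]
      exact lt_of_le_of_lt (sum_le_sum hI3) hρsum
    linarith
  · have hnn : ∀ T : Finset ι, T ⊆ 𝒮 → 0 ≤ ∏ i ∈ T, (y i / 1536) := by
      intro T hT
      apply prod_nonneg
      intro i hi
      have := hy i (hT hi)
      positivity
    -- bound the sum over the union by the sum of sums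
    have hstep1 : ∑ T ∈ (range (J + 1)).biUnion (fun j => (W j).powersetCard (r j)),
          ∏ i ∈ T, (y i / 1536)
        ≤ ∑ j ∈ range (J + 1), ∑ T ∈ (W j).powersetCard (r j), ∏ i ∈ T, (y i / 1536) := by
      have key : ∀ (s : Finset ℕ),
          ∑ T ∈ s.biUnion (fun j => (W j).powersetCard (r j)), ∏ i ∈ T, (y i / 1536)
          ≤ ∑ j ∈ s, ∑ T ∈ (W j).powersetCard (r j), ∏ i ∈ T, (y i / 1536) := by
        intro s
        induction s using Finset.induction_on with
        | empty => simp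
        | insert a s ha ih =>
          rw [biUnion_insert, sum_insert ha]
          have h1 : ∑ T ∈ (W a).powersetCard (r a) ∪ s.biUnion (fun j => (W j).powersetCard (r j)),
                ∏ i ∈ T, (y i / 1536)
              ≤ ∑ T ∈ (W a).powersetCard (r a), ∏ i ∈ T, (y i / 1536)
                + ∑ T ∈ s.biUnion (fun j => (W j).powersetCard (r j)), ∏ i ∈ T, (y i / 1536) := by
            rw [← sum_union_inter]
            have : 0 ≤ ∑ T ∈ (W a).powersetCard (r a) ∩ s.biUnion (fun j => (W j).powersetCard (r j)),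
                ∏ i ∈ T, (y i / 1536) := by
              apply sum_nonneg
              intro T hT
              rw [mem_inter, mem_powersetCard] at hT
              exact hnn T (hT.1.1.trans (hWS a))
            linarith
          linarith
      exact key _
    have hstep2 : ∀ j ∈ range (J + 1),
        ∑ T ∈ (W j).powersetCard (r j), ∏ i ∈ T, (y i / 1536) ≤ (1 / 2 : ℝ) ^ (j + 2) := by
      intro j _
      have h1 := esymm_le (fun i => y i / 1536) (W j)
        (fun i hi => by have := hy i (hWS j hi); positivity) (r j)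
      have h2 : ∑ i ∈ W j, y i / 1536 = P j / 1536 := by
        simp only [hPdef]; rw [sum_div]
      rw [h2] at h1
      have hfl : ρ j < (r j : ℝ) := by
        simp only [hr]
        push_cast
        exact Nat.lt_floor_add_one (ρ j)
      have hPr : P j ≤ 2 * (r j : ℝ) := by
        have : P j / 2 ≤ ρ j := by
          simp only [hρ]
          have : (0 : ℝ) ≤ ((j : ℝ) + 1) / 8 := by positivity
          linarith
        linarith
      have hrj : j + 2 ≤ 8 * r j := by
        have : ((j : ℝ) + 1) / 8 < (r j : ℝ) := by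
          have : ((j : ℝ) + 1) / 8 ≤ ρ j := by
            simp only [hρ]
            have := hP0 j
            linarith
          linarith
        have h8 : ((j : ℝ) + 1) < 8 * (r j : ℝ) := by linarith
        have h9 : j + 1 < 8 * r j := by exact_mod_cast h8
        omega
      exact h1.trans (level_cost_bound (P j) (r j) j (hP0 j) hPr hrj)
    have hstep3 : ∑ j ∈ range (J + 1), (1 / 2 : ℝ) ^ (j + 2) ≤ 1 / 2 := by
      have h1 : ∑ j ∈ range (J + 1), (1 / 2 : ℝ) ^ (j + 2)
          = (1 / 4) * ∑ j ∈ range (J + 1), (1 / 2 : ℝ) ^ j := by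
        rw [mul_sum]
        apply sum_congr rfl
        intro j _
        rw [pow_add]; ring
      have h2 := sum_geometric_two_le (J + 1)
      rw [h1]
      linarith
    exact hstep1.trans ((sum_le_sum hstep2).trans hstep3)

end Vale.Agent.Lib.P034
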