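import Mathlib
import Vale.Agent.Lib.P034.Core

namespace Vale.Agent.Lib.P034

open Finset

lemma sum_biUnion_le_sum {α β : Type*} [DecidableEq α] [DecidableEq β] (s : Finset α)
    (t : α → Finset β) (f : β → ℝ) (hf : ∀ i ∈ s, ∀ x ∈ t i, 0 ≤ f x) :
    ∑ x ∈ s.biUnion t, f x ≤ ∑ i ∈ s, ∑ x ∈ t i, f x := by
  induction s using Finset.induction_on with
  | empty => simp
  | insert a s ha ih =>
    rw [biUnion_insert, sum_insert ha]
    have ih' := ih (fun i hi x hx => hf i (mem_insert_of_mem hi) x hx)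
    have h1 : ∑ x ∈ t a ∪ s.biUnion t, f x ≤ ∑ x ∈ t a, f x + ∑ x ∈ s.biUnion t, f x := by
      rw [← sum_union_inter]
      have : 0 ≤ ∑ x ∈ t a ∩ s.biUnion t, f x := by
        apply sum_nonneg
        intro x hx
        rw [mem_inter] at hx
        exact hf a (mem_insert_self a s) x hx.1
      linarith
    linarith

/-- Covering lemma for disjoint certificates.  Let `𝒮` be a family of nonempty subsets of `X`
with weights `w S ∈ [0,1]` and `∑_{S ∈ 𝒮} w S * p^|S| ≤ 1/2`.  Then there is a family `G` with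
`∑_{T ∈ G} (p/1536)^|T| ≤ 1/2` such that every set `H` containing pairwise disjoint members of
`𝒮` of total weight at least `1` contains a member of `G`. -/
theorem packing_small {X : Type*} [DecidableEq X] (𝒮 : Finset (Finset X))
    (w : Finset X → ℝ) (p : ℝ) (hp0 : 0 ≤ p)
    (hne : ∀ S ∈ 𝒮, S.Nonempty) (hw0 : ∀ S ∈ 𝒮, 0 ≤ w S) (hw1 : ∀ S ∈ 𝒮, w S ≤ 1)
    (hcost : ∑ S ∈ 𝒮, w S * p ^ S.card ≤ 1 / 2) :
    ∃ G : Finset (Finset X),
      (∀ H : Finset X, ∀ I ⊆ 𝒮, (I : Set (Finset X)).PairwiseDisjoint id →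
        (∀ S ∈ I, S ⊆ H) → 1 ≤ ∑ S ∈ I, w S → ∃ T ∈ G, T ⊆ H) ∧
      ∑ T ∈ G, (p / 1536) ^ T.card ≤ 1 / 2 := by
  classical
  obtain ⟨𝒢, h𝒢S, h𝒢cov, h𝒢cost⟩ := packing_core 𝒮 w (fun S => p ^ S.card) hw0 hw1
    (fun S _ => by positivity) hcost
  refine ⟨(𝒢.filter (fun T : Finset (Finset X) => (T : Set (Finset X)).PairwiseDisjoint id)).image
    (fun T : Finset (Finset X) => T.biUnion id), ?_, ?_⟩
  · intro H I hI hdisj hIH hIw
    obtain ⟨T, hT, hTI⟩ := h𝒢cov I hI hIw
    refine ⟨T.biUnion id, ?_, ?_⟩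
    · rw [mem_image]
      refine ⟨T, ?_, rfl⟩
      rw [mem_filter]
      exact ⟨hT, hdisj.subset (by exact_mod_cast hTI)⟩
    · rw [biUnion_subset]
      intro S hS
      exact hIH S (hTI hS)
  · have h1 : ∑ U ∈ (𝒢.filter (fun T : Finset (Finset X) => (T : Set (Finset X)).PairwiseDisjoint id)).image
          (fun T : Finset (Finset X) => T.biUnion id), (p / 1536) ^ U.card
        ≤ ∑ T ∈ 𝒢.filter (fun T : Finset (Finset X) => (T : Set (Finset X)).PairwiseDisjoint id),
          (p / 1536) ^ (T.biUnion id).card :=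
      sum_image_le_of_nonneg (fun U _ => by positivity)
    have h2 : ∀ T ∈ 𝒢.filter (fun T : Finset (Finset X) => (T : Set (Finset X)).PairwiseDisjoint id),
        (p / 1536) ^ (T.biUnion id).card ≤ ∏ S ∈ T, (p ^ S.card / 1536) := by
      intro T hT
      rw [mem_filter] at hT
      rw [card_biUnion hT.2, ← prod_pow_eq_pow_sum]
      apply prod_le_prod
      · intro S _; positivity
      · intro S hS
        simp only [id]
        have hS1 : 1 ≤ S.card := Finset.card_pos.mpr (hne S (h𝒢S T hT.1 hS))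
        rw [div_pow]
        have hK : (1536 : ℝ) ≤ (1536 : ℝ) ^ S.card := by
          calc (1536 : ℝ) = (1536 : ℝ) ^ 1 := (pow_one _).symm
            _ ≤ (1536 : ℝ) ^ S.card := pow_le_pow_right₀ (by norm_num) hS1
        apply div_le_div_of_nonneg_left (by positivity) (by norm_num) hK
    have h3 : ∑ T ∈ 𝒢.filter (fun T : Finset (Finset X) => (T : Set (Finset X)).PairwiseDisjoint id),
          ∏ S ∈ T, (p ^ S.card / 1536)
        ≤ ∑ T ∈ 𝒢, ∏ S ∈ T, (p ^ S.card / 1536) := by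
      apply sum_le_sum_of_subset_of_nonneg (filter_subset _ _)
      intro T _ _
      apply prod_nonneg
      intro S _; positivity
    exact h1.trans ((sum_le_sum h2).trans (h3.trans h𝒢cost))

end Vale.Agent.Lib.P034
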