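import Mathlib
import Vale.Agent.Lib.P034.Defs
import Vale.Agent.Lib.P034.Packing

namespace Vale.Agent.Lib.P034

open Finset

/-- If every member of `F` contains pairwise disjoint sets of total `g`-weight at least `1`,
and `g` has cost at most `1/2` at `p`, then `F` is `(p / 3072)`-small. -/
theorem disjoint_cert_small {X : Type*} [Fintype X] [DecidableEq X] (F : Finset (Finset X))
    (g : Finset X → ℝ) (p : ℝ) (hp0 : 0 ≤ p)
    (hg01 : ∀ S, 0 ≤ g S ∧ g S ≤ 1)
    (hF : ∀ H ∈ F, ∃ I : Finset (Finset X), (∀ S ∈ I, S ⊆ H) ∧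
        (∀ S ∈ I, ∀ T ∈ I, S ≠ T → Disjoint S T) ∧ 1 ≤ ∑ S ∈ I, g S)
    (hcost : fracCost g p ≤ 1 / 2) : IsSmall F (p / 3072) := by
  classical
  set 𝒮 : Finset (Finset X) := univ.filter (fun S => S.Nonempty) with h𝒮
  set w : Finset X → ℝ := fun S => min 1 (2 * g S) with hw
  set q : ℝ := p / 2 with hq
  have hg0 : ∀ S, 0 ≤ g S := fun S => (hg01 S).1
  have hq0 : 0 ≤ q := by positivity
  have hmem𝒮 : ∀ S, S ∈ 𝒮 ↔ S.Nonempty := by
    intro S; simp only [h𝒮, mem_filter, mem_univ, true_and]
  have hw0 : ∀ S, 0 ≤ w S := fun S => le_min zero_le_one (by have := hg0 S; positivity)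
  have hcostw : ∑ S ∈ 𝒮, w S * q ^ S.card ≤ 1 / 2 := by
    have h1 : ∀ S ∈ 𝒮, w S * q ^ S.card ≤ g S * p ^ S.card := by
      intro S hS
      rw [hmem𝒮] at hS
      have hS1 : 1 ≤ S.card := card_pos.mpr hS
      have hqp : q ^ S.card ≤ p ^ S.card / 2 := by
        simp only [hq]
        rw [div_pow]
        apply div_le_div_of_nonneg_left (by positivity) (by norm_num)
        calc (2 : ℝ) = 2 ^ 1 := (pow_one _).symm
          _ ≤ 2 ^ S.card := pow_le_pow_right₀ (by norm_num) hS1
      have h2g : 0 ≤ 2 * g S := by have := hg0 S; positivity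
      calc w S * q ^ S.card ≤ 2 * g S * q ^ S.card :=
            mul_le_mul_of_nonneg_right (min_le_right _ _) (by positivity)
        _ ≤ 2 * g S * (p ^ S.card / 2) := mul_le_mul_of_nonneg_left hqp h2g
        _ = g S * p ^ S.card := by ring
    have h2 : ∑ S ∈ 𝒮, g S * p ^ S.card ≤ fracCost g p := by
      unfold fracCost
      apply sum_le_sum_of_subset_of_nonneg (subset_univ _)
      intro S _ _
      have := hg0 S
      positivity
    exact (sum_le_sum h1).trans (h2.trans hcost)
  obtain ⟨G, hGcov, hGcost⟩ := packing_small 𝒮 w q hq0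
    (fun S hS => (hmem𝒮 S).mp hS) (fun S _ => hw0 S) (fun S _ => min_le_left _ _) hcostw
  refine ⟨G, ?_, ?_⟩
  · intro H hH
    obtain ⟨I, hIH, hIdisj, hIw⟩ := hF H hH
    have hsub : I.erase ∅ ⊆ 𝒮 := by
      intro S hS
      rw [mem_erase] at hS
      rw [hmem𝒮]
      exact nonempty_iff_ne_empty.mpr hS.1
    apply hGcov H (I.erase ∅) hsub
    · intro S hS T hT hne
      have hS1 : S ∈ I.erase ∅ := by exact_mod_cast hS
      have hT1 : T ∈ I.erase ∅ := by exact_mod_cast hT
      simp only [Function.onFun, id]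
      exact hIdisj S (mem_of_mem_erase hS1) T (mem_of_mem_erase hT1) hne
    · intro S hS
      exact hIH S (mem_of_mem_erase hS)
    · have hempty : g ∅ ≤ 1 / 2 := by
        have h1 : g ∅ * p ^ (∅ : Finset X).card ≤ fracCost g p := by
          unfold fracCost
          exact single_le_sum (f := fun S : Finset X => g S * p ^ S.card)
            (fun S _ => by have := hg0 S; positivity) (mem_univ ∅)
        simp only [card_empty, pow_zero, mul_one] at h1
        linarith
      have hsplit : ∑ S ∈ I, g S ≤ g ∅ + ∑ S ∈ I.erase ∅, g S := by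
        by_cases hmem : (∅ : Finset X) ∈ I
        · rw [add_sum_erase I g hmem]
        · rw [erase_eq_of_notMem hmem]
          have := hg0 ∅
          linarith
      have hA : 1 ≤ ∑ S ∈ I.erase ∅, 2 * g S := by
        rw [← mul_sum]
        linarith
      by_cases hbig : ∃ S ∈ I.erase ∅, 1 ≤ 2 * g S
      · obtain ⟨S, hS, hgS⟩ := hbig
        have hwS : w S = 1 := min_eq_left hgS
        calc (1 : ℝ) = w S := hwS.symm
          _ ≤ ∑ T ∈ I.erase ∅, w T := single_le_sum (f := w) (fun T _ => hw0 T) hS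
      · push Not at hbig
        have hwg : ∀ S ∈ I.erase ∅, w S = 2 * g S := fun S hS => min_eq_right (hbig S hS).le
        rw [sum_congr rfl hwg]
        exact hA
  · have : p / 3072 = q / 1536 := by simp only [hq]; ring
    rw [this]
    exact hGcost

end Vale.Agent.Lib.P034
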