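import Mathlib
import Vale.Agent.Lib.P034.Defs
import Vale.Agent.Lib.P034.Disjoint

/-!
Block certificates: if the support of a fractional cover lies in a class of sets that is closed
under unions of intersecting members and has at most `c ^ (m - 1)` members of size `m` through
each point, then the maximal members inside `H` are disjoint certificates, and the covered
family is `p / (6144 c)`-small.
-/

namespace Vale.Agent.Lib.P034

open Finset

variable {X : Type*} [Fintype X] [DecidableEq X]

theorem block_small (conn : Finset X → Prop) (c : ℝ) (hc : 1 ≤ c)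
    (hne : ∀ B, conn B → B.Nonempty)
    (hunion : ∀ B B', conn B → conn B' → ¬ Disjoint B B' → conn (B ∪ B'))
    (hcount : ∀ (v : X) (m : ℕ), 1 ≤ m →
      open Classical in
      ((univ.filter fun B : Finset X => v ∈ B ∧ B.card = m ∧ conn B).card : ℝ) ≤ c ^ (m - 1))
    (F : Finset (Finset X)) (g : Finset X → ℝ) (p : ℝ) (hp0 : 0 ≤ p) (hp1 : p ≤ 1)
    (hg : IsFracCover F g) (hsupp : ∀ S, g S ≠ 0 → conn S)
    (hcost : fracCost g p ≤ 1 / 2) : IsSmall F (p / (6144 * c)) := by
  classical
  have hc0 : 0 < c := lt_of_lt_of_le zero_lt_one hc
  set q : ℝ := p / (2 * c) with hq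
  have hq0 : 0 ≤ q := by positivity
  have hg0 : ∀ S, 0 ≤ g S := fun S => (hg.1 S).1
  set Λ : Finset X → ℝ := fun B => ∑ S ∈ B.powerset, g S with hΛ
  have hΛ0 : ∀ B, 0 ≤ Λ B := fun B => Finset.sum_nonneg fun S _ => hg0 S
  set g' : Finset X → ℝ := fun B => if conn B then min 1 (Λ B) else 0 with hg'
  have hg'01 : ∀ B, 0 ≤ g' B ∧ g' B ≤ 1 := by
    intro B
    simp only [hg']
    split_ifs
    · exact ⟨le_min zero_le_one (hΛ0 B), min_le_left _ _⟩
    · exact ⟨le_refl _, zero_le_one⟩
  have key : IsSmall F (q / 3072) := by
    refine disjoint_cert_small F g' q hq0 hg'01 ?_ ?_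
    · intro H hH
      set I : Finset (Finset X) := H.powerset.filter (fun C => conn C ∧
        ∀ C' ⊆ H, conn C' → C ⊆ C' → C' = C) with hI
      have hIsub : ∀ C ∈ I, C ⊆ H := fun C hC =>
        Finset.mem_powerset.mp (Finset.mem_filter.mp hC).1
      have hIconn : ∀ C ∈ I, conn C := fun C hC => (Finset.mem_filter.mp hC).2.1
      refine ⟨I, hIsub, ?_, ?_⟩
      · intro C hC C' hC' hne'
        by_contra hdisj
        have hsub : C ∪ C' ⊆ H := Finset.union_subset (hIsub C hC) (hIsub C' hC')
        have hU := hunion C C' (hIconn C hC) (hIconn C' hC') hdisj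
        have h1 := (Finset.mem_filter.mp hC).2.2 (C ∪ C') hsub hU Finset.subset_union_left
        have h2 := (Finset.mem_filter.mp hC').2.2 (C ∪ C') hsub hU Finset.subset_union_right
        exact hne' (h1.symm.trans h2)
      · have hmax : ∀ S ∈ H.powerset, g S ≠ 0 → ∃ C ∈ I, S ⊆ C := by
          intro S hS hgS
          have hSconn := hsupp S hgS
          set cand := H.powerset.filter (fun C => conn C ∧ S ⊆ C) with hcand
          have hne_cand : cand.Nonempty :=
            ⟨S, Finset.mem_filter.mpr ⟨hS, hSconn, Finset.Subset.refl S⟩⟩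
          obtain ⟨C, hCmem, hCmax⟩ := Finset.exists_max_image cand Finset.card hne_cand
          rw [hcand, Finset.mem_filter] at hCmem
          refine ⟨C, ?_, hCmem.2.2⟩
          rw [hI, Finset.mem_filter]
          refine ⟨hCmem.1, hCmem.2.1, ?_⟩
          intro C' hC'H hC'conn hCC'
          have hC'cand : C' ∈ cand := by
            rw [hcand, Finset.mem_filter]
            exact ⟨Finset.mem_powerset.mpr hC'H, hC'conn, hCmem.2.2.trans hCC'⟩
          exact (Finset.eq_of_subset_of_card_le hCC' (hCmax C' hC'cand)).symm
        have hsum : (1 : ℝ) ≤ ∑ C ∈ I, Λ C := by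
          calc (1 : ℝ) ≤ ∑ S ∈ H.powerset, g S := hg.2 H hH
            _ ≤ ∑ S ∈ H.powerset, ∑ C ∈ I, if S ⊆ C then g S else 0 := by
                refine Finset.sum_le_sum fun S hS => ?_
                by_cases hgS : g S = 0
                · rw [hgS]
                  exact Finset.sum_nonneg fun C _ => by split_ifs <;> exact le_refl _
                · obtain ⟨C, hC, hSC⟩ := hmax S hS hgS
                  calc g S = if S ⊆ C then g S else 0 := by rw [if_pos hSC]
                    _ ≤ ∑ C ∈ I, if S ⊆ C then g S else 0 :=
                        Finset.single_le_sum (f := fun C => if S ⊆ C then g S else 0)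
                          (fun C _ => by split_ifs <;> first | exact hg0 S | exact le_refl _) hC
            _ = ∑ C ∈ I, ∑ S ∈ H.powerset, if S ⊆ C then g S else 0 := Finset.sum_comm
            _ = ∑ C ∈ I, Λ C := by
                refine Finset.sum_congr rfl fun C hC => ?_
                rw [hΛ, ← Finset.sum_filter]
                refine Finset.sum_congr ?_ fun _ _ => rfl
                ext S
                simp only [Finset.mem_filter, Finset.mem_powerset]
                exact ⟨fun h => h.2, fun h => ⟨h.trans (hIsub C hC), h⟩⟩
        by_cases hbig : ∃ C ∈ I, 1 ≤ Λ C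
        · obtain ⟨C, hC, hC1⟩ := hbig
          have hCconn : conn C := hIconn C hC
          calc (1 : ℝ) = g' C := by simp [hg', hCconn, hC1]
            _ ≤ ∑ C ∈ I, g' C := Finset.single_le_sum (fun B _ => (hg'01 B).1) hC
        · push Not at hbig
          calc (1 : ℝ) ≤ ∑ C ∈ I, Λ C := hsum
            _ = ∑ C ∈ I, g' C := by
                refine Finset.sum_congr rfl fun C hC => ?_
                have hCconn : conn C := hIconn C hC
                simp [hg', hCconn, (hbig C hC).le]
    · -- cost of the block weights
      have hone : ∀ S : Finset X, g S ≠ 0 →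
          ∑ B ∈ univ.filter (fun B : Finset X => conn B ∧ S ⊆ B), q ^ B.card ≤ p ^ S.card := by
        intro S hgS
        have hSconn := hsupp S hgS
        obtain ⟨v, hv⟩ := hne S hSconn
        have hs1 : 1 ≤ S.card := Finset.card_pos.mpr ⟨v, hv⟩
        set 𝒞 := univ.filter (fun B : Finset X => conn B ∧ S ⊆ B) with h𝒞
        have hmaps : ∀ B ∈ 𝒞, B.card ∈ Finset.Ico S.card (Fintype.card X + 1) := by
          intro B hB
          rw [h𝒞, Finset.mem_filter] at hB
          rw [Finset.mem_Ico]
          exact ⟨Finset.card_le_card hB.2.2, Nat.lt_succ_of_le (Finset.card_le_univ B)⟩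
        rw [← Finset.sum_fiberwise_of_maps_to hmaps]
        have hterm : ∀ m ∈ Finset.Ico S.card (Fintype.card X + 1),
            ∑ B ∈ 𝒞 with B.card = m, q ^ B.card ≤ (p / 2) ^ m := by
          intro m hm
          rw [Finset.mem_Ico] at hm
          have hm1 : 1 ≤ m := hs1.trans hm.1
          have hcard : ((𝒞.filter fun B => B.card = m).card : ℝ) ≤ c ^ (m - 1) := by
            refine le_trans ?_ (hcount v m hm1)
            refine Nat.cast_le.mpr (Finset.card_le_card ?_)
            intro B hB
            rw [Finset.mem_filter, h𝒞, Finset.mem_filter] at hB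
            rw [Finset.mem_filter]
            exact ⟨Finset.mem_univ _, hB.1.2.2 hv, hB.2, hB.1.2.1⟩
          calc ∑ B ∈ 𝒞 with B.card = m, q ^ B.card
              = ∑ B ∈ 𝒞 with B.card = m, q ^ m := by
                refine Finset.sum_congr rfl fun B hB => ?_
                rw [(Finset.mem_filter.mp hB).2]
            _ = ((𝒞.filter fun B => B.card = m).card : ℝ) * q ^ m := by
                rw [Finset.sum_const, nsmul_eq_mul]
            _ ≤ c ^ (m - 1) * q ^ m := by
                exact mul_le_mul_of_nonneg_right hcard (pow_nonneg hq0 m)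
            _ = (p / 2) ^ m / c := by
                obtain ⟨k, rfl⟩ : ∃ k, m = k + 1 := ⟨m - 1, by omega⟩
                rw [hq, Nat.add_sub_cancel]
                have h1 : p / (2 * c) = p / 2 / c := by field_simp
                rw [h1, div_pow, pow_succ c k]
                field_simp
            _ ≤ (p / 2) ^ m := div_le_self (by positivity) hc
        calc ∑ m ∈ Finset.Ico S.card (Fintype.card X + 1), ∑ B ∈ 𝒞 with B.card = m, q ^ B.card
            ≤ ∑ m ∈ Finset.Ico S.card (Fintype.card X + 1), (p / 2) ^ m :=
              Finset.sum_le_sum hterm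
          _ ≤ (p / 2) ^ S.card / (1 - p / 2) :=
              geom_sum_Ico_le_of_lt_one (by positivity) (by linarith)
          _ ≤ (p / 2) ^ S.card * 2 := by
              rw [div_le_iff₀ (by linarith)]
              have h2 : 0 ≤ (p / 2) ^ S.card := by positivity
              nlinarith
          _ ≤ p ^ S.card := by
              obtain ⟨k, hk⟩ : ∃ k, S.card = k + 1 := ⟨S.card - 1, by omega⟩
              rw [hk, div_pow, pow_succ (2 : ℝ)]
              have h2k : (1 : ℝ) ≤ 2 ^ k := one_le_pow₀ (by norm_num)
              have hpk : 0 ≤ p ^ (k + 1) := by positivity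
              rw [div_mul_eq_mul_div, div_le_iff₀ (by positivity)]
              nlinarith
      calc fracCost g' q = ∑ B : Finset X, g' B * q ^ B.card := rfl
        _ ≤ ∑ B : Finset X, ∑ S : Finset X, if conn B ∧ S ⊆ B then g S * q ^ B.card else 0 := by
            refine Finset.sum_le_sum fun B _ => ?_
            by_cases hB : conn B
            · have h1 : g' B ≤ Λ B := by
                simp only [hg', if_pos hB]
                exact min_le_right _ _
              calc g' B * q ^ B.card ≤ Λ B * q ^ B.card :=
                    mul_le_mul_of_nonneg_right h1 (pow_nonneg hq0 _)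
                _ = ∑ S ∈ B.powerset, g S * q ^ B.card := by rw [hΛ, Finset.sum_mul]
                _ = ∑ S : Finset X, if conn B ∧ S ⊆ B then g S * q ^ B.card else 0 := by
                    rw [← Finset.sum_filter]
                    refine Finset.sum_congr ?_ fun _ _ => rfl
                    ext S
                    simp [hB]
            · simp [hg', hB]
        _ = ∑ S : Finset X, ∑ B : Finset X, if conn B ∧ S ⊆ B then g S * q ^ B.card else 0 :=
            Finset.sum_comm
        _ ≤ ∑ S : Finset X, g S * p ^ S.card := by
            refine Finset.sum_le_sum fun S _ => ?_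
            by_cases hgS : g S = 0
            · simp [hgS]
            · rw [← Finset.sum_filter, ← Finset.mul_sum]
              exact mul_le_mul_of_nonneg_left (hone S hgS) (hg0 S)
        _ ≤ 1 / 2 := hcost
  have hqeq : q / 3072 = p / (6144 * c) := by
    rw [hq]
    field_simp
    ring
  rw [← hqeq]
  exact key

end Vale.Agent.Lib.P034
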