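import Mathlib

/-!
Counting connected vertex sets of a graph of bounded degree by closed-walk style tours:
a connected set with `m` vertices containing `v` is the vertex set of a walk with `2 (m - 1)`
steps ending at `v`, and there are at most `Δ ^ (2 (m - 1))` such walks.
-/

namespace Vale.Agent.Lib.P034

open Finset

universe u

/-- Every finite connected graph with `m + 1` vertices has, for each vertex `v`, a list of
`2 m + 1` vertices, consecutive ones adjacent, ending at `v` and containing every vertex. -/
theorem exists_tour : ∀ (m : ℕ) (V : Type u) [Finite V] (G : SimpleGraph V), G.Connected →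
    Nat.card V = m + 1 → ∀ v : V, ∃ t : List V, t.length = 2 * m + 1 ∧ t.IsChain G.Adj ∧
      t.getLast? = some v ∧ ∀ x, x ∈ t := by
  intro m
  induction m with
  | zero =>
    intro V _ G hG hcard v
    refine ⟨[v], by simp, by simp, by simp, ?_⟩
    intro x
    have : Subsingleton V := by
      have := Fintype.ofFinite V
      rw [Nat.card_eq_fintype_card] at hcard
      exact Fintype.card_le_one_iff_subsingleton.mp (by omega)
    simp [Subsingleton.elim x v]
  | succ m ih =>
    intro V _ G hG hcard v
    classical
    have := Fintype.ofFinite V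
    have hnt : Nontrivial V := by
      rw [Nat.card_eq_fintype_card] at hcard
      exact Fintype.one_lt_card_iff_nontrivial.mp (by omega)
    obtain ⟨T, hTG, hT⟩ := hG.exists_isTree_le
    have : T.LocallyFinite := fun x => Fintype.ofFinite _
    obtain ⟨u₁, u₂, hne, h1, h2⟩ := hT.exists_ne_and_degree_eq_one
    obtain ⟨u, huv, hu⟩ : ∃ u, u ≠ v ∧ T.degree u = 1 := by
      by_cases h : u₁ = v
      · exact ⟨u₂, fun h' => hne (h.trans h'.symm), h2⟩
      · exact ⟨u₁, h, h1⟩
    have hconnT : (T.induce {u}ᶜ).Connected := hT.1.induce_compl_singleton_of_degree_eq_one hu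
    have hconn : (G.induce {u}ᶜ).Connected := hconnT.mono (by
      intro a b hab
      exact hTG hab)
    obtain ⟨w, hw, -⟩ := SimpleGraph.degree_eq_one_iff_existsUnique_adj.mp hu
    have hwG : G.Adj u w := hTG hw
    have hcard' : Nat.card ↥({u}ᶜ : Set V) = m + 1 := by
      rw [Nat.card_coe_set_eq, Set.ncard_compl, Set.ncard_singleton, hcard]
      omega
    have hv' : v ∈ ({u}ᶜ : Set V) := by simpa using huv.symm
    obtain ⟨t', hlen, hchain, hlast, hall⟩ := ih ↥({u}ᶜ : Set V) (G.induce {u}ᶜ) hconn hcard' ⟨v, hv'⟩
    set t'' : List V := t'.map Subtype.val with ht''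
    have hlen'' : t''.length = 2 * m + 1 := by simp [ht'', hlen]
    have hchain'' : t''.IsChain G.Adj := by
      rw [ht'']
      exact List.isChain_map_of_isChain Subtype.val (fun a b hab => hab) hchain
    have hlast'' : t''.getLast? = some v := by
      rw [ht'', List.getLast?_map, hlast]
      rfl
    have hall'' : ∀ x, x ≠ u → x ∈ t'' := by
      intro x hx
      rw [ht'', List.mem_map]
      exact ⟨⟨x, by simpa using hx⟩, hall _, rfl⟩
    have hwu : w ≠ u := fun h => by
      rw [h] at hwG
      exact G.loopless.irrefl u hwG
    obtain ⟨s₁, s₂, hsplit⟩ := List.append_of_mem (hall'' w hwu)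
    refine ⟨s₁ ++ w :: u :: w :: s₂, ?_, ?_, ?_, ?_⟩
    · have : (s₁ ++ w :: s₂).length = 2 * m + 1 := by rw [← hsplit, hlen'']
      simp only [List.length_append, List.length_cons] at this ⊢
      omega
    · rw [hsplit, List.isChain_split] at hchain''
      rw [List.isChain_split, List.isChain_cons_cons, List.isChain_cons_cons]
      exact ⟨hchain''.1, hwG.symm, hwG, hchain''.2⟩
    · rw [hsplit] at hlast''
      rw [List.getLast?_append_of_ne_nil _ (by simp)] at hlast'' ⊢
      simpa using hlast''
    · intro x
      by_cases hx : x = u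
      · simp [hx]
      · have := hall'' x hx
        rw [hsplit] at this
        simp only [List.mem_append, List.mem_cons] at this ⊢
        tauto


variable {X : Type*} [Fintype X] [DecidableEq X]

/-- The lists of `L + 1` vertices, consecutive ones adjacent, that end at `v`. -/
def walkLists (G : SimpleGraph X) [DecidableRel G.Adj] (v : X) : ℕ → Finset (List X)
  | 0 => {[v]}
  | L + 1 => (walkLists G v L).biUnion fun t => (G.neighborFinset (t.headD v)).image (· :: t)

theorem card_walkLists_le (G : SimpleGraph X) [DecidableRel G.Adj] (Δ : ℕ)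
    (hdeg : ∀ x, G.degree x ≤ Δ) (v : X) (L : ℕ) : (walkLists G v L).card ≤ Δ ^ L := by
  induction L with
  | zero => simp [walkLists]
  | succ L ih =>
    rw [walkLists]
    refine Finset.card_biUnion_le.trans ?_
    calc ∑ t ∈ walkLists G v L, ((G.neighborFinset (t.headD v)).image (· :: t)).card
        ≤ ∑ _t ∈ walkLists G v L, Δ := by
          refine Finset.sum_le_sum fun t _ => ?_
          refine Finset.card_image_le.trans ?_
          rw [SimpleGraph.card_neighborFinset_eq_degree]
          exact hdeg _
      _ = (walkLists G v L).card * Δ := by rw [Finset.sum_const, smul_eq_mul]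
      _ ≤ Δ ^ L * Δ := Nat.mul_le_mul_right _ ih
      _ = Δ ^ (L + 1) := by rw [pow_succ]

theorem mem_walkLists (G : SimpleGraph X) [DecidableRel G.Adj] (v : X) :
    ∀ (L : ℕ) (t : List X), t.length = L + 1 → t.IsChain G.Adj → t.getLast? = some v →
      t ∈ walkLists G v L := by
  intro L
  induction L with
  | zero =>
    intro t hlen _ hlast
    match t, hlen with
    | [a], _ =>
      simp only [List.getLast?_singleton, Option.some.injEq] at hlast
      simp [walkLists, hlast]
  | succ L ih =>
    intro t hlen hchain hlast
    match t, hlen with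
    | y :: z :: t', hlen =>
      have hlen' : (z :: t').length = L + 1 := by simpa using hlen
      rw [List.isChain_cons_cons] at hchain
      have hlast' : (z :: t').getLast? = some v := by simpa using hlast
      have hmem := ih (z :: t') hlen' hchain.2 hlast'
      rw [walkLists, Finset.mem_biUnion]
      refine ⟨z :: t', hmem, ?_⟩
      rw [Finset.mem_image]
      refine ⟨y, ?_, rfl⟩
      rw [SimpleGraph.mem_neighborFinset]
      simpa using hchain.1.symm

/-- In a graph of maximum degree at most `Δ`, at most `Δ ^ (2 (m - 1))` vertex sets with `m`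
vertices contain `v` and induce a connected subgraph. -/
theorem card_connected_le (G : SimpleGraph X) [DecidableRel G.Adj] (Δ : ℕ)
    (hdeg : ∀ x, G.degree x ≤ Δ) (v : X) (m : ℕ) (hm : 1 ≤ m) :
    open Classical in
    (univ.filter fun B : Finset X =>
      v ∈ B ∧ B.card = m ∧ (G.induce (B : Set X)).Connected).card ≤ Δ ^ (2 * (m - 1)) := by
  classical
  refine le_trans ?_ (card_walkLists_le G Δ hdeg v (2 * (m - 1)))
  refine le_trans (Finset.card_le_card ?_) (Finset.card_image_le (f := List.toFinset))
  intro B hB
  rw [Finset.mem_filter] at hB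
  obtain ⟨-, hvB, hcard, hconn⟩ := hB
  have hcard' : Nat.card ↥(B : Set X) = (m - 1) + 1 := by
    rw [Nat.card_eq_fintype_card]
    have : Fintype.card ↥(B : Set X) = B.card := by simp
    omega
  obtain ⟨t', hlen, hchain, hlast, hall⟩ :=
    exists_tour (m - 1) ↥(B : Set X) (G.induce (B : Set X)) hconn hcard' ⟨v, hvB⟩
  rw [Finset.mem_image]
  refine ⟨t'.map Subtype.val, mem_walkLists G v _ _ (by simp [hlen]) ?_ ?_, ?_⟩
  · exact List.isChain_map_of_isChain Subtype.val (fun a b hab => hab) hchain
  · rw [List.getLast?_map, hlast]
    rfl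
  · ext x
    simp only [List.mem_toFinset, List.mem_map]
    constructor
    · rintro ⟨y, -, rfl⟩
      exact y.2
    · intro hx
      exact ⟨⟨x, hx⟩, hall _, rfl⟩

end Vale.Agent.Lib.P034
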