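import Mathlib
import Vale.Agent.Lib.P034.Defs
import Vale.Agent.Lib.P034.Blocks
import Vale.Agent.Lib.P034.Tours

/-!
Fractional covers supported on connected vertex sets of a graph of maximum degree `Δ`.
-/

namespace Vale.Agent.Lib.P034

open Finset

variable {X : Type*} [Fintype X] [DecidableEq X]

theorem connected_small (G : SimpleGraph X) [DecidableRel G.Adj] (Δ : ℕ) (hΔ : 1 ≤ Δ)
    (hdeg : ∀ v, G.degree v ≤ Δ)
    (F : Finset (Finset X)) (g : Finset X → ℝ) (p : ℝ) (hp0 : 0 ≤ p) (hp1 : p ≤ 1)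
    (hg : IsFracCover F g)
    (hconn : ∀ S : Finset X, g S ≠ 0 → (G.induce (S : Set X)).Connected)
    (hcost : fracCost g p ≤ 1 / 2) : IsSmall F (p / (6144 * (Δ : ℝ) ^ 2)) := by
  classical
  have hΔ' : (1 : ℝ) ≤ (Δ : ℝ) := by exact_mod_cast hΔ
  refine block_small (fun B : Finset X => (G.induce (B : Set X)).Connected) ((Δ : ℝ) ^ 2)
    (one_le_pow₀ hΔ') ?_ ?_ ?_ F g p hp0 hp1 hg hconn hcost
  · intro B hB
    obtain ⟨x⟩ := hB.nonempty
    exact ⟨x.1, x.2⟩
  · intro B B' hB hB' hdisj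
    obtain ⟨x, hx, hx'⟩ := Finset.not_disjoint_iff.mp hdisj
    have := SimpleGraph.induce_union_connected hB.preconnected hB'.preconnected
      (⟨x, hx, hx'⟩ : ((B : Set X) ∩ (B' : Set X)).Nonempty)
    rwa [← Finset.coe_union] at this
  · intro v m hm
    have h := card_connected_le G Δ hdeg v m hm
    have h' : ((univ.filter fun B : Finset X =>
        v ∈ B ∧ B.card = m ∧ (G.induce (B : Set X)).Connected).card : ℝ)
        ≤ (Δ : ℝ) ^ (2 * (m - 1)) := by
      exact_mod_cast h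
    rw [← pow_mul]
    convert h' using 2
    congr!

end Vale.Agent.Lib.P034
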