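import Vale.Agent.Lib.P034.Defs
import Vale.Agent.Lib.P064.ForFinal
import Vale.Agent.Lib.P064.BddPc

/-!
P034 for the property of containing a copy of a fixed graph.

The ground set is the set of unordered pairs of elements of `Fin n`; `containFamily n H` is the
family of all sets `A` of pairs such that the graph with edge set `A` has a subgraph isomorphic
to `H`.  If the uniform measure on the embeddings of `H` into the complete graph is spread with
parameter `K * p_E(n,H)`, then every fractional cover has cost at least one at that parameter,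
and below `p_E(n,H)` the copies of a subgraph of `H` with small expected count form a cheap
cover.  Hence a fractional cover of cost at most `1/2` at `p` makes the family `p / K`-small.
The spread property is taken from the counting theorems of P064: forests (`K = 74000`) and
graphs of maximum degree at most `D` (`K = 74 D`).
-/

namespace Vale.Agent.Lib.P034

open Finset Vale.Agent.Lib.P064

/-- The family of all sets `A` of unordered pairs of elements of `Fin n` such that the graph on
`Fin n` with edge set `A` has a subgraph isomorphic to `H`. -/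
noncomputable def containFamily (n : ℕ) {W : Type} (H : SimpleGraph W) :
    Finset (Finset (Sym2 (Fin n))) := by
  classical
  exact Finset.univ.filter
    (fun A => SimpleGraph.IsContained H (SimpleGraph.fromEdgeSet (A : Set (Sym2 (Fin n)))))

theorem mem_containFamily (n : ℕ) {W : Type} (H : SimpleGraph W) (A : Finset (Sym2 (Fin n))) :
    A ∈ containFamily n H ↔ SimpleGraph.IsContained H (graphOf A) := by
  unfold containFamily graphOf
  simp

/-- The edge image of an embedding of `H` belongs to the family. -/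
theorem eImg_mem_containFamily (n : ℕ) {W : Type} [Fintype W] (H : SimpleGraph W)
    (φ : W ↪ Fin n) : eImg H (φ : W → Fin n) ∈ containFamily n H := by
  rw [mem_containFamily]
  refine ⟨⟨⟨φ, ?_⟩, φ.injective⟩⟩
  intro a b hab
  unfold graphOf
  rw [SimpleGraph.fromEdgeSet_adj]
  refine ⟨?_, fun h => H.ne_of_adj hab (φ.injective h)⟩
  exact_mod_cast (mem_eImg H _ _ _).mpr ⟨a, b, hab, rfl, rfl⟩

/-- The cost of a nonnegative weight function is monotone in `p ≥ 0`. -/
theorem fracCost_mono {X : Type*} [Fintype X] [DecidableEq X] (g : Finset X → ℝ)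
    (hg : ∀ S, 0 ≤ g S) {p q : ℝ} (hp : 0 ≤ p) (hpq : p ≤ q) :
    fracCost g p ≤ fracCost g q := by
  unfold fracCost
  exact Finset.sum_le_sum
    (fun S _ => mul_le_mul_of_nonneg_left (pow_le_pow_left₀ hp hpq _) (hg S))

/-- If the uniform measure on the embeddings of `H` is spread with parameter `κ`, every
fractional cover of the containment family has cost at least one at `κ`. -/
theorem fracCost_ge_one_of_spread (n : ℕ) {W : Type} [Fintype W] (H : SimpleGraph W)
    (hW : Fintype.card W ≤ n) (κ : ℝ)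
    (hspread : ∀ A : Finset (Sym2 (Fin n)),
      ((Finset.univ.filter (fun φ : W ↪ Fin n => A ⊆ eImg H (φ : W → Fin n))).card : ℝ)
        ≤ (n.descFactorial (Fintype.card W) : ℝ) * κ ^ A.card)
    (g : Finset (Sym2 (Fin n)) → ℝ) (hg : IsFracCover (containFamily n H) g) :
    1 ≤ fracCost g κ := by
  classical
  obtain ⟨N, hN⟩ : ∃ N : ℕ, N = n.descFactorial (Fintype.card W) := ⟨_, rfl⟩
  have hNpos : 0 < N := by
    rw [hN]
    exact Nat.descFactorial_pos.mpr hW
  have hNcard : (Finset.univ : Finset (W ↪ Fin n)).card = N := by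
    rw [Finset.card_univ, Fintype.card_embedding_eq, Fintype.card_fin, hN]
  have hNpos' : (0 : ℝ) < N := by exact_mod_cast hNpos
  rw [← hN] at hspread
  have h1 : (N : ℝ) ≤ ∑ φ : W ↪ Fin n, ∑ S ∈ (eImg H (φ : W → Fin n)).powerset, g S := by
    calc (N : ℝ) = ∑ _φ : W ↪ Fin n, (1 : ℝ) := by
          rw [Finset.sum_const, hNcard, nsmul_eq_mul, mul_one]
      _ ≤ ∑ φ : W ↪ Fin n, ∑ S ∈ (eImg H (φ : W → Fin n)).powerset, g S :=
          Finset.sum_le_sum (fun φ _ => hg.2 _ (eImg_mem_containFamily n H φ))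
  have h2 : ∑ φ : W ↪ Fin n, ∑ S ∈ (eImg H (φ : W → Fin n)).powerset, g S
      = ∑ S : Finset (Sym2 (Fin n)), g S *
          ((Finset.univ.filter (fun φ : W ↪ Fin n => S ⊆ eImg H (φ : W → Fin n))).card : ℝ) := by
    have e1 : ∀ φ : W ↪ Fin n, ∑ S ∈ (eImg H (φ : W → Fin n)).powerset, g S
        = ∑ S : Finset (Sym2 (Fin n)), if S ⊆ eImg H (φ : W → Fin n) then g S else 0 := by
      intro φ
      rw [← Finset.sum_filter]
      apply Finset.sum_congr _ (fun _ _ => rfl)
      ext S
      simp [Finset.mem_powerset]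
    rw [Finset.sum_congr rfl (fun φ _ => e1 φ), Finset.sum_comm]
    apply Finset.sum_congr rfl
    intro S _
    rw [← Finset.sum_filter, Finset.sum_const, nsmul_eq_mul, mul_comm]
  have h3 : ∑ S : Finset (Sym2 (Fin n)), g S *
        ((Finset.univ.filter (fun φ : W ↪ Fin n => S ⊆ eImg H (φ : W → Fin n))).card : ℝ)
      ≤ ∑ S : Finset (Sym2 (Fin n)), g S * ((N : ℝ) * κ ^ S.card) :=
    Finset.sum_le_sum (fun S _ => mul_le_mul_of_nonneg_left (hspread S) (hg.1 S).1)
  have h4 : ∑ S : Finset (Sym2 (Fin n)), g S * ((N : ℝ) * κ ^ S.card)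
      = (N : ℝ) * fracCost g κ := by
    unfold fracCost
    rw [Finset.mul_sum]
    apply Finset.sum_congr rfl
    intro S _
    ring
  have h5 : (N : ℝ) * 1 ≤ (N : ℝ) * fracCost g κ := by linarith
  exact le_of_mul_le_mul_left h5 hNpos'

/-- The number of edge images of a graph in the complete graph is at most its number of copies
there. -/
theorem card_images_le_copyCount (n : ℕ) {V : Type} [Fintype V] (K : SimpleGraph V) :
    ((Finset.univ : Finset (V ↪ Fin n)).image
        (fun ψ : V ↪ Fin n => eImg K (ψ : V → Fin n))).card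
      ≤ (⊤ : SimpleGraph (Fin n)).copyCount K := by
  classical
  rw [SimpleGraph.copyCount_eq_card_image_copyToSubgraph]
  have hsub : (Finset.univ : Finset (V ↪ Fin n)).image
        (fun ψ : V ↪ Fin n => eImg K (ψ : V → Fin n))
      ⊆ ((Finset.univ : Finset (K.Copy (⊤ : SimpleGraph (Fin n)))).image
          SimpleGraph.Copy.toSubgraph).image (fun G' => G'.edgeSet.toFinite.toFinset) := by
    intro S hS
    obtain ⟨ψ, -, rfl⟩ := Finset.mem_image.mp hS
    have hhom : ∀ {a b : V}, K.Adj a b → (⊤ : SimpleGraph (Fin n)).Adj (ψ a) (ψ b) := by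
      intro a b hab
      rw [SimpleGraph.top_adj]
      exact fun h => K.ne_of_adj hab (ψ.injective h)
    refine Finset.mem_image.mpr ⟨_, Finset.mem_image.mpr
      ⟨(⟨⟨ψ, hhom⟩, ψ.injective⟩ : K.Copy (⊤ : SimpleGraph (Fin n))), Finset.mem_univ _, rfl⟩, ?_⟩
    ext e
    simp [eImg, SimpleGraph.Subgraph.edgeSet_map]
  exact (Finset.card_le_card hsub).trans Finset.card_image_le

/-- Below the expectation threshold the containment family is small: the copies of a subgraph
with expected count less than `1/2` form a cover. -/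
theorem containFamily_small_of_lt_pE (n : ℕ) {W : Type} [Fintype W] (H : SimpleGraph W)
    (hW : Fintype.card W ≤ n) (p : ℝ) (hp0 : 0 ≤ p) (hp : p < pE n H) :
    IsSmall (containFamily n H) p := by
  classical
  obtain ⟨-, hE1, -⟩ := pE_mem n H hW
  have hp1 : p ≤ 1 := by linarith
  have hnot : ¬ (∀ F : H.Subgraph,
      1 / 2 ≤ gnpExp n p (fun G => (G.copyCount F.coe : ℝ))) := by
    intro hall
    have hmem : p ∈ {p : ℝ | 0 ≤ p ∧ p ≤ 1 ∧
        ∀ F : H.Subgraph, 1 / 2 ≤ gnpExp n p (fun G => (G.copyCount F.coe : ℝ))} :=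
      ⟨hp0, hp1, hall⟩
    have hle : pE n H ≤ p := csInf_le ⟨0, fun x hx => hx.1⟩ hmem
    linarith
  push Not at hnot
  obtain ⟨F, hF⟩ := hnot
  rw [gnpExp_copyCount_eq] at hF
  refine ⟨(Finset.univ : Finset (F.verts ↪ Fin n)).image
    (fun ψ : F.verts ↪ Fin n => eImg F.coe (ψ : F.verts → Fin n)), ?_, ?_⟩
  · intro A hA
    rw [mem_containFamily] at hA
    obtain ⟨c⟩ := (F.coe_isContained).trans hA
    refine ⟨eImg F.coe (c.toEmbedding : F.verts → Fin n),
      Finset.mem_image.mpr ⟨c.toEmbedding, Finset.mem_univ _, rfl⟩, ?_⟩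
    intro e he
    induction e using Sym2.ind with
    | _ x y =>
      rw [mem_eImg] at he
      obtain ⟨a, b, hab, rfl, rfl⟩ := he
      have hadj := c.toHom.map_adj hab
      unfold graphOf at hadj
      rw [SimpleGraph.fromEdgeSet_adj] at hadj
      exact_mod_cast hadj.1
  · have hcard : ∀ S ∈ (Finset.univ : Finset (F.verts ↪ Fin n)).image
        (fun ψ : F.verts ↪ Fin n => eImg F.coe (ψ : F.verts → Fin n)),
        p ^ S.card = p ^ F.coe.edgeSet.ncard := by
      intro S hS
      obtain ⟨ψ, -, rfl⟩ := Finset.mem_image.mp hS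
      rw [eImg_card F.coe _ ψ.injective]
    rw [Finset.sum_congr rfl hcard, Finset.sum_const, nsmul_eq_mul]
    have hcnt := card_images_le_copyCount n F.coe
    have hcnt' : (((Finset.univ : Finset (F.verts ↪ Fin n)).image
        (fun ψ : F.verts ↪ Fin n => eImg F.coe (ψ : F.verts → Fin n))).card : ℝ)
        ≤ ((⊤ : SimpleGraph (Fin n)).copyCount F.coe : ℝ) := by exact_mod_cast hcnt
    calc (((Finset.univ : Finset (F.verts ↪ Fin n)).image
          (fun ψ : F.verts ↪ Fin n => eImg F.coe (ψ : F.verts → Fin n))).card : ℝ)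
          * p ^ F.coe.edgeSet.ncard
        ≤ ((⊤ : SimpleGraph (Fin n)).copyCount F.coe : ℝ) * p ^ F.coe.edgeSet.ncard :=
          mul_le_mul_of_nonneg_right hcnt' (pow_nonneg hp0 _)
      _ ≤ 1 / 2 := hF.le

/-- A spread bound with parameter `K * p_E(n,H)` turns every fractional cover of cost at most
`1/2` at `p` into a cover of cost at most `1/2` at `p / K`. -/
theorem contain_small (n : ℕ) {W : Type} [Fintype W] (H : SimpleGraph W)
    (hW : Fintype.card W ≤ n) (K : ℝ) (hK : 0 < K)
    (hspread : ∀ A : Finset (Sym2 (Fin n)),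
      ((Finset.univ.filter (fun φ : W ↪ Fin n => A ⊆ eImg H (φ : W → Fin n))).card : ℝ)
        ≤ (n.descFactorial (Fintype.card W) : ℝ) * (K * pE n H) ^ A.card)
    (g : Finset (Sym2 (Fin n)) → ℝ) (p : ℝ) (hp0 : 0 ≤ p)
    (hg : IsFracCover (containFamily n H) g) (hcost : fracCost g p ≤ 1 / 2) :
    IsSmall (containFamily n H) (p / K) := by
  obtain ⟨hE0, -, -⟩ := pE_mem n H hW
  have hκ : 0 ≤ K * pE n H := mul_nonneg hK.le hE0
  have h1 := fracCost_ge_one_of_spread n H hW (K * pE n H) hspread g hg
  have hlt : p < K * pE n H := by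
    by_contra hge
    have h2 := fracCost_mono g (fun S => (hg.1 S).1) hκ (not_lt.mp hge)
    linarith
  apply containFamily_small_of_lt_pE n H hW (p / K) (div_nonneg hp0 hK.le)
  rw [div_lt_iff₀ hK]
  linarith

/-- Forests: a fractional cover of cost at most `1/2` at `p` makes the containment family
`p / 74000`-small. -/
theorem contain_small_forest (n : ℕ) {W : Type} [Fintype W] (H : SimpleGraph W)
    (hacyc : H.IsAcyclic) (hW : Fintype.card W ≤ n) (hH : ∃ a b, H.Adj a b)
    (g : Finset (Sym2 (Fin n)) → ℝ) (p : ℝ) (hp0 : 0 ≤ p)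
    (hg : IsFracCover (containFamily n H) g) (hcost : fracCost g p ≤ 1 / 2) :
    IsSmall (containFamily n H) (p / 74000) := by
  classical
  obtain ⟨hE0, -, -⟩ := pE_mem n H hW
  apply contain_small n H hW 74000 (by norm_num) ?_ g p hp0 hg hcost
  intro A
  have h := embeddings_spread_gen H n hW (pE n H) hE0 10000 (by norm_num)
    (labelledCopyCount_le_pE_forest n H hacyc hW hH) A
  have he : (7.4 : ℝ) * 10000 * pE n H = 74000 * pE n H := by ring
  rw [he] at h
  convert h using 2

/-- Maximum degree at most `D`: a fractional cover of cost at most `1/2` at `p` makes the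
containment family `p / (74 D)`-small. -/
theorem contain_small_degree (n : ℕ) {W : Type} [Fintype W] (H : SimpleGraph W)
    (hW : Fintype.card W ≤ n) (hH : ∃ a b, H.Adj a b) (D : ℕ) (hD1 : 1 ≤ D)
    (hD : ∀ w : W, (H.neighborSet w).ncard ≤ D)
    (g : Finset (Sym2 (Fin n)) → ℝ) (p : ℝ) (hp0 : 0 ≤ p)
    (hg : IsFracCover (containFamily n H) g) (hcost : fracCost g p ≤ 1 / 2) :
    IsSmall (containFamily n H) (p / (74 * (D : ℝ))) := by
  classical
  obtain ⟨hE0, hE1, hq⟩ := pE_mem n H hW
  have hn : 0 < n := by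
    obtain ⟨a, -, -⟩ := hH
    exact lt_of_lt_of_le (Fintype.card_pos_iff.mpr ⟨a⟩) hW
  have hD1' : (1 : ℝ) ≤ (D : ℝ) := by exact_mod_cast hD1
  have hDpos : (0 : ℝ) < 74 * (D : ℝ) := by linarith
  apply contain_small n H hW (74 * (D : ℝ)) hDpos ?_ g p hp0 hg hcost
  intro A
  have h := embeddings_spread H n hn hW (pE n H) hE0 hE1 hq D hD1 hD A
  convert h using 2

end Vale.Agent.Lib.P034
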