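import Mathlib
import Vale.Agent.Lib.P034.Defs
import Vale.Agent.Lib.P034.Connected

/-!
Fractional covers whose support has bounded degree: every point of the ground set lies in at
most `D` sets of nonzero weight.  Enumerate the ground set and join two points when they are
consecutive members of some support set; this graph has maximum degree at most `2 D` and every
nonempty support set induces a connected subgraph, so `connected_small` applies.
-/

namespace Vale.Agent.Lib.P034

open Finset

variable {X : Type*} [Fintype X] [DecidableEq X]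

/-- `x` and `y` are consecutive members of `S` (with `x` before `y`) for the enumeration `f`. -/
def Consec (f : X → ℕ) (S : Finset X) (x y : X) : Prop :=
  x ∈ S ∧ y ∈ S ∧ f x < f y ∧ ∀ z ∈ S, ¬ (f x < f z ∧ f z < f y)

/-- The graph joining consecutive members of the sets of nonzero weight. -/
def supportGraph (f : X → ℕ) (g : Finset X → ℝ) : SimpleGraph X where
  Adj x y := ∃ S, g S ≠ 0 ∧ (Consec f S x y ∨ Consec f S y x)
  symm := ⟨by
    rintro x y ⟨S, hS, h⟩
    exact ⟨S, hS, h.symm⟩⟩
  loopless := ⟨by
    rintro x ⟨S, hS, h | h⟩ <;> exact lt_irrefl _ h.2.2.1⟩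

omit [Fintype X] [DecidableEq X] in
theorem consec_unique_right (f : X → ℕ) (hf : Function.Injective f) (S : Finset X) (x y y' : X)
    (h : Consec f S x y) (h' : Consec f S x y') : y = y' := by
  apply hf
  rcases lt_trichotomy (f y) (f y') with hlt | heq | hgt
  · exact absurd ⟨h.2.2.1, hlt⟩ (h'.2.2.2 y h.2.1)
  · exact heq
  · exact absurd ⟨h'.2.2.1, hgt⟩ (h.2.2.2 y' h'.2.1)

omit [Fintype X] [DecidableEq X] in
theorem consec_unique_left (f : X → ℕ) (hf : Function.Injective f) (S : Finset X) (x y y' : X)
    (h : Consec f S y x) (h' : Consec f S y' x) : y = y' := by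
  apply hf
  rcases lt_trichotomy (f y) (f y') with hlt | heq | hgt
  · exact absurd ⟨hlt, h'.2.2.1⟩ (h.2.2.2 y' h'.1)
  · exact heq
  · exact absurd ⟨hgt, h.2.2.1⟩ (h'.2.2.2 y h.1)

omit [DecidableEq X] in
theorem supportGraph_degree_le (f : X → ℕ) (hf : Function.Injective f) (g : Finset X → ℝ)
    (D : ℕ) (hdeg : ∀ x : X, ∃ T : Finset (Finset X), T.card ≤ D ∧
      ∀ S : Finset X, g S ≠ 0 → x ∈ S → S ∈ T)
    [DecidableRel (supportGraph f g).Adj] (x : X) :
    (supportGraph f g).degree x ≤ 2 * D := by
  classical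
  obtain ⟨T, hT, hTmem⟩ := hdeg x
  set φ : X → Finset X × Bool := fun y =>
    if h : (supportGraph f g).Adj x y then (Classical.choose h, decide (f x < f y))
    else (∅, false) with hφ
  have hmaps : ∀ y ∈ (supportGraph f g).neighborFinset x, φ y ∈ T ×ˢ (univ : Finset Bool) := by
    intro y hy
    rw [SimpleGraph.mem_neighborFinset] at hy
    have hspec := Classical.choose_spec hy
    simp only [hφ, dif_pos hy, mem_product, mem_univ, and_true]
    apply hTmem _ hspec.1
    rcases hspec.2 with h | h
    · exact h.1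
    · exact h.2.1
  have hinj : Set.InjOn φ ((supportGraph f g).neighborFinset x : Set X) := by
    intro y hy y' hy' heq
    rw [Finset.mem_coe, SimpleGraph.mem_neighborFinset] at hy hy'
    have hspec := Classical.choose_spec hy
    have hspec' := Classical.choose_spec hy'
    simp only [hφ, dif_pos hy, dif_pos hy', Prod.mk.injEq, decide_eq_decide] at heq
    obtain ⟨hS, hb⟩ := heq
    rw [← hS] at hspec'
    by_cases hlt : f x < f y
    · have hlt' : f x < f y' := hb.mp hlt
      have h1 : Consec f (Classical.choose hy) x y := by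
        rcases hspec.2 with h | h
        · exact h
        · exact absurd h.2.2.1 (not_lt.mpr hlt.le)
      have h2 : Consec f (Classical.choose hy) x y' := by
        rcases hspec'.2 with h | h
        · exact h
        · exact absurd h.2.2.1 (not_lt.mpr hlt'.le)
      exact consec_unique_right f hf _ x y y' h1 h2
    · have hlt' : ¬ f x < f y' := fun h => hlt (hb.mpr h)
      have h1 : Consec f (Classical.choose hy) y x := by
        rcases hspec.2 with h | h
        · exact absurd h.2.2.1 hlt
        · exact h
      have h2 : Consec f (Classical.choose hy) y' x := by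
        rcases hspec'.2 with h | h
        · exact absurd h.2.2.1 hlt'
        · exact h
      exact consec_unique_left f hf _ x y y' h1 h2
  have hcard := Finset.card_le_card_of_injOn φ hmaps hinj
  rw [Finset.card_product, Finset.card_univ, Fintype.card_bool] at hcard
  rw [← SimpleGraph.card_neighborFinset_eq_degree]
  calc ((supportGraph f g).neighborFinset x).card ≤ T.card * 2 := hcard
    _ ≤ D * 2 := Nat.mul_le_mul_right 2 hT
    _ = 2 * D := Nat.mul_comm _ _

omit [Fintype X] in
theorem supportGraph_connected (f : X → ℕ) (hf : Function.Injective f) (g : Finset X → ℝ)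
    (S : Finset X) (hS : g S ≠ 0) (hne : S.Nonempty) :
    ((supportGraph f g).induce (S : Set X)).Connected := by
  classical
  obtain ⟨m, hm, hmin⟩ := Finset.exists_min_image S f hne
  have key : ∀ n : ℕ, ∀ y : X, ∀ hy : y ∈ S, f y = n →
      ((supportGraph f g).induce (S : Set X)).Reachable ⟨m, hm⟩ ⟨y, hy⟩ := by
    intro n
    induction n using Nat.strong_induction_on with
    | _ n ih =>
      intro y hy hyn
      by_cases hym : y = m
      · subst hym
        exact SimpleGraph.Reachable.refl _
      · have hlt : f m < f y :=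
          lt_of_le_of_ne (hmin y hy) (fun h => hym (hf h).symm)
        set T := S.filter (fun z => f z < f y) with hT
        have hTne : T.Nonempty := ⟨m, Finset.mem_filter.mpr ⟨hm, hlt⟩⟩
        obtain ⟨y', hy'T, hmax⟩ := Finset.exists_max_image T f hTne
        rw [hT, Finset.mem_filter] at hy'T
        have hreach := ih (f y') (hyn ▸ hy'T.2) y' hy'T.1 rfl
        have hadj : ((supportGraph f g).induce (S : Set X)).Adj ⟨y', hy'T.1⟩ ⟨y, hy⟩ := by
          rw [SimpleGraph.comap_adj]
          refine ⟨S, hS, Or.inl ⟨hy'T.1, hy, hy'T.2, ?_⟩⟩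
          rintro z hz ⟨hz1, hz2⟩
          have hzT : z ∈ T := Finset.mem_filter.mpr ⟨hz, hz2⟩
          exact absurd (hmax z hzT) (not_le.mpr hz1)
        exact hreach.trans hadj.reachable
  rw [SimpleGraph.connected_iff_exists_forall_reachable]
  exact ⟨⟨m, hm⟩, fun w => key (f w.1) w.1 w.2 rfl⟩

/-- Bounded-degree supports, assuming the empty set has weight `0`. -/
theorem bounded_degree_small_aux (F : Finset (Finset X)) (g : Finset X → ℝ) (p : ℝ) (D : ℕ)
    (hD : 1 ≤ D) (hp0 : 0 ≤ p) (hp1 : p ≤ 1) (hg : IsFracCover F g) (hg0 : g ∅ = 0)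
    (hdeg : ∀ x : X, ∃ T : Finset (Finset X), T.card ≤ D ∧
      ∀ S : Finset X, g S ≠ 0 → x ∈ S → S ∈ T)
    (hcost : fracCost g p ≤ 1 / 2) : IsSmall F (p / (24576 * (D : ℝ) ^ 2)) := by
  classical
  have hf : Function.Injective (fun x : X => ((Fintype.equivFin X x : Fin (Fintype.card X)) : ℕ)) :=
    fun a b h => (Fintype.equivFin X).injective (Fin.ext h)
  set f : X → ℕ := fun x => ((Fintype.equivFin X x : Fin (Fintype.card X)) : ℕ) with hfdef
  have h := connected_small (supportGraph f g) (2 * D) (by omega)
    (fun v => supportGraph_degree_le f hf g D hdeg v) F g p hp0 hp1 hg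
    (fun S hS => supportGraph_connected f hf g S hS
      (Finset.nonempty_iff_ne_empty.mpr (fun hemp => hS (hemp ▸ hg0)))) hcost
  have hconst : (6144 : ℝ) * ((2 * D : ℕ) : ℝ) ^ 2 = 24576 * (D : ℝ) ^ 2 := by
    push_cast; ring
  rwa [hconst] at h

/-- **Bounded-degree supports.** If every point lies in at most `D` sets of nonzero weight of a
fractional cover of cost at most `1/2` at `p ∈ [0,1]`, then the covered family is
`(p / (49152 D²))`-small. -/
theorem bounded_degree_small (F : Finset (Finset X)) (g : Finset X → ℝ) (p : ℝ) (D : ℕ)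
    (hD : 1 ≤ D) (hp0 : 0 ≤ p) (hp1 : p ≤ 1) (hg : IsFracCover F g)
    (hdeg : ∀ x : X, ∃ T : Finset (Finset X), T.card ≤ D ∧
      ∀ S : Finset X, g S ≠ 0 → x ∈ S → S ∈ T)
    (hcost : fracCost g p ≤ 1 / 2) : IsSmall F (p / (49152 * (D : ℝ) ^ 2)) := by
  classical
  have hg0 : ∀ S, 0 ≤ g S := fun S => (hg.1 S).1
  set g' : Finset X → ℝ := fun S => if S = ∅ then 0 else min 1 (2 * g S) with hg'
  set q : ℝ := p / 2 with hq
  have hq0 : 0 ≤ q := by positivity
  have hq1 : q ≤ 1 := by simp only [hq]; linarith
  -- the empty set has weight at most 1/2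
  have hempty : g ∅ ≤ 1 / 2 := by
    have h1 : g ∅ * p ^ (∅ : Finset X).card ≤ fracCost g p := by
      unfold fracCost
      exact Finset.single_le_sum (f := fun S : Finset X => g S * p ^ S.card)
        (fun S _ => mul_nonneg (hg0 S) (pow_nonneg hp0 _)) (Finset.mem_univ ∅)
    simp only [Finset.card_empty, pow_zero, mul_one] at h1
    linarith
  have hg'01 : ∀ S, 0 ≤ g' S ∧ g' S ≤ 1 := by
    intro S
    simp only [hg']
    split_ifs
    · exact ⟨le_refl _, zero_le_one⟩
    · exact ⟨le_min zero_le_one (by have := hg0 S; positivity), min_le_left _ _⟩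
  have hcover : IsFracCover F g' := by
    refine ⟨hg'01, ?_⟩
    intro H hH
    have hsum := hg.2 H hH
    by_cases hbig : ∃ S ∈ H.powerset, S ≠ ∅ ∧ 1 ≤ 2 * g S
    · obtain ⟨S, hSH, hSne, hS1⟩ := hbig
      have h1 : g' S = 1 := by
        simp only [hg', if_neg hSne]
        exact min_eq_left hS1
      calc (1 : ℝ) = g' S := h1.symm
        _ ≤ ∑ S ∈ H.powerset, g' S :=
          Finset.single_le_sum (f := g') (fun S _ => (hg'01 S).1) hSH
    · push Not at hbig
      have hterm : ∀ S ∈ H.powerset, 2 * g S - (if S = ∅ then 2 * g ∅ else 0) ≤ g' S := by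
        intro S hS
        by_cases hSe : S = ∅
        · subst hSe
          simp [hg']
        · have := hbig S hS (Finset.nonempty_iff_ne_empty.mpr hSe)
          simp only [hg', if_neg hSe, sub_zero]
          rw [min_eq_right this.le]
      have hsplit : ∑ S ∈ H.powerset, (2 * g S - (if S = ∅ then 2 * g ∅ else 0))
          = 2 * ∑ S ∈ H.powerset, g S - 2 * g ∅ := by
        rw [Finset.sum_sub_distrib, ← Finset.mul_sum,
          Finset.sum_ite_eq' H.powerset (∅ : Finset X) (fun _ => 2 * g ∅)]
        simp
      calc (1 : ℝ) ≤ 2 * ∑ S ∈ H.powerset, g S - 2 * g ∅ := by linarith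
        _ = ∑ S ∈ H.powerset, (2 * g S - (if S = ∅ then 2 * g ∅ else 0)) := hsplit.symm
        _ ≤ ∑ S ∈ H.powerset, g' S := Finset.sum_le_sum hterm
  have hg'0 : g' ∅ = 0 := by simp [hg']
  have hdeg' : ∀ x : X, ∃ T : Finset (Finset X), T.card ≤ D ∧
      ∀ S : Finset X, g' S ≠ 0 → x ∈ S → S ∈ T := by
    intro x
    obtain ⟨T, hT, hTmem⟩ := hdeg x
    refine ⟨T, hT, fun S hS hx => hTmem S ?_ hx⟩
    intro hgS
    apply hS
    simp only [hg']
    split_ifs
    · rfl
    · rw [hgS]; simp
  have hcost' : fracCost g' q ≤ 1 / 2 := by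
    refine le_trans ?_ hcost
    unfold fracCost
    apply Finset.sum_le_sum
    intro S _
    by_cases hSe : S = ∅
    · simp only [hg', if_pos hSe, zero_mul]
      exact mul_nonneg (hg0 S) (pow_nonneg hp0 _)
    · have hS1 : 1 ≤ S.card := Finset.card_pos.mpr (Finset.nonempty_iff_ne_empty.mpr hSe)
      have hqp : q ^ S.card ≤ p ^ S.card / 2 := by
        simp only [hq]
        rw [div_pow]
        apply div_le_div_of_nonneg_left (by positivity) (by norm_num)
        calc (2 : ℝ) = 2 ^ 1 := (pow_one _).symm
          _ ≤ 2 ^ S.card := pow_le_pow_right₀ (by norm_num) hS1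
      have h2g : 0 ≤ 2 * g S := by have := hg0 S; positivity
      simp only [hg', if_neg hSe]
      calc min 1 (2 * g S) * q ^ S.card ≤ 2 * g S * q ^ S.card :=
            mul_le_mul_of_nonneg_right (min_le_right _ _) (by positivity)
        _ ≤ 2 * g S * (p ^ S.card / 2) := mul_le_mul_of_nonneg_left hqp h2g
        _ = g S * p ^ S.card := by ring
  have h := bounded_degree_small_aux F g' q D hD hq0 hq1 hcover hg'0 hdeg' hcost'
  have hconst : q / (24576 * (D : ℝ) ^ 2) = p / (49152 * (D : ℝ) ^ 2) := by
    simp only [hq]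
    rw [div_div]
    congr 1
    ring
  rwa [hconst] at h

end Vale.Agent.Lib.P034
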