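import Mathlib
import Vale.Agent.Lib.P034.Defs
import Vale.Agent.Lib.P034.Blocks

/-!
Fractional covers supported on intervals of a finite linear order.
-/

namespace Vale.Agent.Lib.P034

open Finset

variable {X : Type*} [Fintype X] [LinearOrder X]

omit [Fintype X] in
theorem lower_comparable (v : X) (B B' : Finset X) (hv : v ∈ B) (hv' : v ∈ B')
    (hB : (B : Set X).OrdConnected) (hB' : (B' : Set X).OrdConnected) :
    B.filter (· < v) ⊆ B'.filter (· < v) ∨ B'.filter (· < v) ⊆ B.filter (· < v) := by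
  by_contra hcon
  push Not at hcon
  obtain ⟨h1, h2⟩ := hcon
  obtain ⟨x, hx, hx'⟩ := Finset.not_subset.mp h1
  obtain ⟨y, hy, hy'⟩ := Finset.not_subset.mp h2
  rw [Finset.mem_filter] at hx hy
  rcases lt_trichotomy x y with hxy | hxy | hxy
  · exact hy' (Finset.mem_filter.mpr ⟨hB.out hx.1 hv ⟨hxy.le, hy.2.le⟩, hy.2⟩)
  · rw [hxy] at hx'
    exact hx' (Finset.mem_filter.mpr hy)
  · exact hx' (Finset.mem_filter.mpr ⟨hB'.out hy.1 hv' ⟨hxy.le, hx.2.le⟩, hx.2⟩)

omit [Fintype X] in
theorem upper_comparable (v : X) (B B' : Finset X) (hv : v ∈ B) (hv' : v ∈ B')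
    (hB : (B : Set X).OrdConnected) (hB' : (B' : Set X).OrdConnected) :
    B.filter (v < ·) ⊆ B'.filter (v < ·) ∨ B'.filter (v < ·) ⊆ B.filter (v < ·) := by
  by_contra hcon
  push Not at hcon
  obtain ⟨h1, h2⟩ := hcon
  obtain ⟨x, hx, hx'⟩ := Finset.not_subset.mp h1
  obtain ⟨y, hy, hy'⟩ := Finset.not_subset.mp h2
  rw [Finset.mem_filter] at hx hy
  rcases lt_trichotomy x y with hxy | hxy | hxy
  · exact hx' (Finset.mem_filter.mpr ⟨hB'.out hv' hy.1 ⟨hx.2.le, hxy.le⟩, hx.2⟩)
  · rw [hxy] at hx'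
    exact hx' (Finset.mem_filter.mpr hy)
  · exact hy' (Finset.mem_filter.mpr ⟨hB.out hv hx.1 ⟨hy.2.le, hxy.le⟩, hy.2⟩)

omit [Fintype X] in
theorem card_split (v : X) (B : Finset X) (hv : v ∈ B) :
    B.card = (B.filter (· < v)).card + 1 + (B.filter (v < ·)).card := by
  have h1 : B = (B.filter (· < v) ∪ {v}) ∪ B.filter (v < ·) := by
    ext z
    simp only [Finset.mem_union, Finset.mem_filter, Finset.mem_singleton]
    constructor
    · intro hz
      rcases lt_trichotomy z v with h | h | h
      · exact Or.inl (Or.inl ⟨hz, h⟩)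
      · exact Or.inl (Or.inr h)
      · exact Or.inr ⟨hz, h⟩
    · rintro ((⟨hz, -⟩ | rfl) | ⟨hz, -⟩)
      · exact hz
      · exact hv
      · exact hz
  have hd1 : Disjoint (B.filter (· < v)) {v} := by
    rw [Finset.disjoint_singleton_right]
    simp
  have hd2 : Disjoint (B.filter (· < v) ∪ {v}) (B.filter (v < ·)) := by
    rw [Finset.disjoint_left]
    intro z hz hz'
    rw [Finset.mem_filter] at hz'
    rw [Finset.mem_union, Finset.mem_filter, Finset.mem_singleton] at hz
    rcases hz with ⟨-, h⟩ | h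
    · exact lt_asymm h hz'.2
    · rw [h] at hz'
      exact lt_irrefl _ hz'.2
  calc B.card = ((B.filter (· < v) ∪ {v}) ∪ B.filter (v < ·)).card := by rw [← h1]
    _ = (B.filter (· < v)).card + 1 + (B.filter (v < ·)).card := by
        rw [Finset.card_union_of_disjoint hd2, Finset.card_union_of_disjoint hd1,
          Finset.card_singleton]

theorem interval_count (v : X) (m : ℕ) (hm : 1 ≤ m) :
    open Classical in
    ((univ.filter fun B : Finset X =>
      v ∈ B ∧ B.card = m ∧ (B.Nonempty ∧ (B : Set X).OrdConnected)).card : ℝ)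
      ≤ (2 : ℝ) ^ (m - 1) := by
  classical
  set 𝒜 := univ.filter fun B : Finset X =>
      v ∈ B ∧ B.card = m ∧ (B.Nonempty ∧ (B : Set X).OrdConnected) with h𝒜
  have hinj : 𝒜.card ≤ (Finset.range m).card := by
    refine Finset.card_le_card_of_injOn (fun B => (B.filter (· < v)).card) ?_ ?_
    · intro B hB
      rw [Finset.mem_coe, h𝒜, Finset.mem_filter] at hB
      rw [Finset.mem_coe, Finset.mem_range]
      have h1 := card_split v B hB.2.1
      have h2 := hB.2.2.1
      change (B.filter (· < v)).card < m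
      omega
    · intro B hB B' hB' hk
      rw [Finset.mem_coe, h𝒜, Finset.mem_filter] at hB hB'
      simp only at hk
      have hs := card_split v B hB.2.1
      have hs' := card_split v B' hB'.2.1
      have hm1 := hB.2.2.1
      have hm2 := hB'.2.2.1
      have hku : (B.filter (v < ·)).card = (B'.filter (v < ·)).card := by omega
      have hL : B.filter (· < v) = B'.filter (· < v) := by
        rcases lower_comparable v B B' hB.2.1 hB'.2.1 hB.2.2.2.2 hB'.2.2.2.2 with h | h
        · exact Finset.eq_of_subset_of_card_le h hk.ge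
        · exact (Finset.eq_of_subset_of_card_le h hk.le).symm
      have hU : B.filter (v < ·) = B'.filter (v < ·) := by
        rcases upper_comparable v B B' hB.2.1 hB'.2.1 hB.2.2.2.2 hB'.2.2.2.2 with h | h
        · exact Finset.eq_of_subset_of_card_le h hku.ge
        · exact (Finset.eq_of_subset_of_card_le h hku.le).symm
      ext z
      rcases lt_trichotomy z v with h | h | h
      · have h1 : z ∈ B.filter (· < v) ↔ z ∈ B'.filter (· < v) := by rw [hL]
        simpa [Finset.mem_filter, h] using h1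
      · rw [h]
        exact ⟨fun _ => hB'.2.1, fun _ => hB.2.1⟩
      · have h1 : z ∈ B.filter (v < ·) ↔ z ∈ B'.filter (v < ·) := by rw [hU]
        simpa [Finset.mem_filter, h] using h1
  rw [Finset.card_range] at hinj
  have h2 : m ≤ 2 ^ (m - 1) := by
    obtain ⟨k, rfl⟩ : ∃ k, m = k + 1 := ⟨m - 1, by omega⟩
    rw [Nat.add_sub_cancel]
    exact Nat.lt_two_pow_self
  calc (𝒜.card : ℝ) ≤ (m : ℝ) := by exact_mod_cast hinj
    _ ≤ ((2 ^ (m - 1) : ℕ) : ℝ) := by exact_mod_cast h2
    _ = (2 : ℝ) ^ (m - 1) := by push_cast; rfl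

theorem interval_small (F : Finset (Finset X)) (g : Finset X → ℝ) (p : ℝ) (hp0 : 0 ≤ p)
    (hp1 : p ≤ 1) (hg : IsFracCover F g)
    (hint : ∀ S : Finset X, g S ≠ 0 → S.Nonempty ∧ (S : Set X).OrdConnected)
    (hcost : fracCost g p ≤ 1 / 2) : IsSmall F (p / 12288) := by
  classical
  have h := block_small (fun B : Finset X => B.Nonempty ∧ (B : Set X).OrdConnected) 2
    (by norm_num) (fun B hB => hB.1) ?_ ?_ F g p hp0 hp1 hg hint hcost
  · norm_num at h
    exact h
  · intro B B' hB hB' hdisj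
    obtain ⟨x, hx, hx'⟩ := Finset.not_disjoint_iff.mp hdisj
    refine ⟨⟨x, Finset.mem_union_left _ hx⟩, ⟨?_⟩⟩
    intro a ha b hb c hc
    rw [Finset.mem_coe, Finset.mem_union] at ha hb ⊢
    rcases ha with ha | ha <;> rcases hb with hb | hb
    · exact Or.inl (hB.2.out ha hb hc)
    · rcases le_total c x with h | h
      · exact Or.inl (hB.2.out ha hx ⟨hc.1, h⟩)
      · exact Or.inr (hB'.2.out hx' hb ⟨h, hc.2⟩)
    · rcases le_total c x with h | h
      · exact Or.inr (hB'.2.out ha hx' ⟨hc.1, h⟩)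
      · exact Or.inl (hB.2.out hx hb ⟨h, hc.2⟩)
    · exact Or.inr (hB'.2.out ha hb hc)
  · intro v m hm
    convert interval_count v m hm using 2
    congr!

end Vale.Agent.Lib.P034
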