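import Mathlib
import Vale.Agent.Lib.P034.Defs
import Vale.Agent.Lib.P034.Packing

namespace Vale.Agent.Lib.P034

open Finset

/-- Fractional covers with laminar support round to integral covers at `p / 6144`. -/
theorem laminar_small {X : Type*} [Fintype X] [DecidableEq X] (F : Finset (Finset X))
    (g : Finset X → ℝ) (p : ℝ) (hp0 : 0 ≤ p) (hp1 : p ≤ 1)
    (hg : IsFracCover F g)
    (hlam : ∀ S T, g S ≠ 0 → g T ≠ 0 → S ⊆ T ∨ T ⊆ S ∨ Disjoint S T)
    (hcost : fracCost g p ≤ 1 / 2) : IsSmall F (p / 6144) := by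
  classical
  obtain ⟨hg01, hgF⟩ := hg
  set 𝒮 : Finset (Finset X) := univ.filter (fun S => g S ≠ 0 ∧ S.Nonempty) with h𝒮
  set Γ : Finset X → ℝ := fun M => ∑ S ∈ 𝒮.filter (fun S => S ⊆ M), 2 * g S with hΓ
  set w : Finset X → ℝ := fun M => min 1 (Γ M) with hw
  set q : ℝ := p / 4 with hq
  have hg0 : ∀ S, 0 ≤ g S := fun S => (hg01 S).1
  have hΓ0 : ∀ M, 0 ≤ Γ M := fun M =>
    sum_nonneg (fun S _ => by have := hg0 S; positivity)
  have hq0 : 0 ≤ q := by positivity
  have hq1 : q ≤ 1 / 4 := by simp only [hq]; linarith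
  have hmem𝒮 : ∀ S, S ∈ 𝒮 ↔ (g S ≠ 0 ∧ S.Nonempty) := by
    intro S; simp only [h𝒮, mem_filter, mem_univ, true_and]
  -- the members of `𝒮` above a fixed nonempty `S` form a chain, so have distinct sizes
  have hchain : ∀ S ∈ 𝒮, ∑ M ∈ 𝒮.filter (fun M => S ⊆ M), q ^ M.card ≤ (4 / 3) * q ^ S.card := by
    intro S hS
    rw [hmem𝒮] at hS
    have hinj : ∀ M ∈ 𝒮.filter (fun M => S ⊆ M), ∀ M' ∈ 𝒮.filter (fun M => S ⊆ M),
        M.card = M'.card → M = M' := by
      intro M hM M' hM' hc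
      rw [mem_filter, hmem𝒮] at hM hM'
      rcases hlam M M' hM.1.1 hM'.1.1 with h | h | h
      · exact eq_of_subset_of_card_le h hc.ge
      · exact (eq_of_subset_of_card_le h hc.le).symm
      · exfalso
        obtain ⟨x, hx⟩ := hS.2
        exact Finset.disjoint_left.mp h (hM.2 hx) (hM'.2 hx)
    have himg : ∑ M ∈ 𝒮.filter (fun M => S ⊆ M), q ^ M.card
        = ∑ k ∈ (𝒮.filter (fun M => S ⊆ M)).image Finset.card, q ^ k :=
      (sum_image (f := fun k => q ^ k) hinj).symm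
    have hsub : (𝒮.filter (fun M => S ⊆ M)).image Finset.card
        ⊆ Ico S.card (Fintype.card X + 1) := by
      intro k hk
      rw [mem_image] at hk
      obtain ⟨M, hM, rfl⟩ := hk
      rw [mem_filter] at hM
      rw [mem_Ico]
      exact ⟨card_le_card hM.2, Nat.lt_succ_of_le (card_le_univ M)⟩
    have hqS : 0 ≤ q ^ S.card := by positivity
    calc ∑ M ∈ 𝒮.filter (fun M => S ⊆ M), q ^ M.card
        = ∑ k ∈ (𝒮.filter (fun M => S ⊆ M)).image Finset.card, q ^ k := himg
      _ ≤ ∑ k ∈ Ico S.card (Fintype.card X + 1), q ^ k :=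
          sum_le_sum_of_subset_of_nonneg hsub (fun _ _ _ => by positivity)
      _ ≤ q ^ S.card / (1 - q) := geom_sum_Ico_le_of_lt_one hq0 (by linarith)
      _ ≤ (4 / 3) * q ^ S.card := by
          rw [div_le_iff₀ (by linarith)]
          nlinarith
  have hcostw : ∑ M ∈ 𝒮, w M * q ^ M.card ≤ 1 / 2 := by
    have h1 : ∑ M ∈ 𝒮, w M * q ^ M.card ≤ ∑ M ∈ 𝒮, Γ M * q ^ M.card :=
      sum_le_sum (fun M _ => mul_le_mul_of_nonneg_right (min_le_right _ _) (by positivity))
    have h2 : ∑ M ∈ 𝒮, Γ M * q ^ M.card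
        = ∑ M ∈ 𝒮, ∑ S ∈ 𝒮.filter (fun S => S ⊆ M), 2 * g S * q ^ M.card := by
      apply sum_congr rfl
      intro M _
      simp only [hΓ]
      rw [sum_mul]
    have h3 : ∑ M ∈ 𝒮, ∑ S ∈ 𝒮.filter (fun S => S ⊆ M), 2 * g S * q ^ M.card
        = ∑ S ∈ 𝒮, ∑ M ∈ 𝒮.filter (fun M => S ⊆ M), 2 * g S * q ^ M.card := by
      apply sum_comm'
      intro M S
      simp only [mem_filter]
      tauto
    have h4 : ∀ S ∈ 𝒮, ∑ M ∈ 𝒮.filter (fun M => S ⊆ M), 2 * g S * q ^ M.card
        ≤ (2 / 3) * (g S * p ^ S.card) := by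
      intro S hS
      rw [← mul_sum]
      have hS' := (hmem𝒮 S).mp hS
      have hgS := hg0 S
      have hc := hchain S hS
      have hS1 : 1 ≤ S.card := card_pos.mpr hS'.2
      have hqp : q ^ S.card ≤ p ^ S.card / 4 := by
        simp only [hq]
        rw [div_pow]
        apply div_le_div_of_nonneg_left (by positivity) (by norm_num)
        calc (4 : ℝ) = 4 ^ 1 := (pow_one _).symm
          _ ≤ 4 ^ S.card := pow_le_pow_right₀ (by norm_num) hS1
      have h2g : 0 ≤ 2 * g S := by positivity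
      calc 2 * g S * ∑ M ∈ 𝒮.filter (fun M => S ⊆ M), q ^ M.card
          ≤ 2 * g S * ((4 / 3) * q ^ S.card) := mul_le_mul_of_nonneg_left hc h2g
        _ ≤ 2 * g S * ((4 / 3) * (p ^ S.card / 4)) := by
            apply mul_le_mul_of_nonneg_left _ h2g
            linarith
        _ = (2 / 3) * (g S * p ^ S.card) := by ring
    have h5 : ∑ S ∈ 𝒮, g S * p ^ S.card ≤ fracCost g p := by
      unfold fracCost
      apply sum_le_sum_of_subset_of_nonneg (subset_univ _)
      intro S _ _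
      have := hg0 S
      positivity
    calc ∑ M ∈ 𝒮, w M * q ^ M.card ≤ ∑ M ∈ 𝒮, Γ M * q ^ M.card := h1
      _ = ∑ S ∈ 𝒮, ∑ M ∈ 𝒮.filter (fun M => S ⊆ M), 2 * g S * q ^ M.card := by rw [h2, h3]
      _ ≤ ∑ S ∈ 𝒮, (2 / 3) * (g S * p ^ S.card) := sum_le_sum h4
      _ = (2 / 3) * ∑ S ∈ 𝒮, g S * p ^ S.card := by rw [mul_sum]
      _ ≤ 1 / 2 := by linarith
  obtain ⟨G, hGcov, hGcost⟩ := packing_small 𝒮 w q hq0
    (fun S hS => ((hmem𝒮 S).mp hS).2)
    (fun S _ => le_min zero_le_one (hΓ0 S)) (fun S _ => min_le_left _ _) hcostw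
  refine ⟨G, ?_, ?_⟩
  · intro H hH
    set 𝒜 : Finset (Finset X) := 𝒮.filter (fun S => S ⊆ H) with h𝒜
    set I : Finset (Finset X) := 𝒜.filter (fun M => ∀ M' ∈ 𝒜, M ⊆ M' → M' ⊆ M) with hI
    have hI𝒜 : I ⊆ 𝒜 := filter_subset _ _
    have h𝒜𝒮 : 𝒜 ⊆ 𝒮 := filter_subset _ _
    apply hGcov H I (hI𝒜.trans h𝒜𝒮)
    · intro M hM M' hM' hne
      have hM1 : M ∈ I := by exact_mod_cast hM
      have hM1' : M' ∈ I := by exact_mod_cast hM'
      simp only [Function.onFun, id]
      have hM2 := mem_filter.mp hM1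
      have hM2' := mem_filter.mp hM1'
      have hg1 := ((hmem𝒮 M).mp (h𝒜𝒮 hM2.1)).1
      have hg1' := ((hmem𝒮 M').mp (h𝒜𝒮 hM2'.1)).1
      rcases hlam M M' hg1 hg1' with h | h | h
      · exact absurd (subset_antisymm h (hM2.2 M' hM2'.1 h)) hne
      · exact absurd (subset_antisymm (hM2'.2 M hM2.1 h) h) hne
      · exact h
    · intro S hS
      exact (mem_filter.mp (hI𝒜 hS)).2
    · -- total weight of the maximal members
      have hempty : g ∅ ≤ 1 / 2 := by
        have h1 : g ∅ * p ^ (∅ : Finset X).card ≤ fracCost g p := by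
          unfold fracCost
          exact single_le_sum (f := fun S : Finset X => g S * p ^ S.card)
            (fun S _ => by have := hg0 S; positivity) (mem_univ ∅)
        simp only [card_empty, pow_zero, mul_one] at h1
        linarith
      have hsplit : ∑ S ∈ H.powerset, g S = g ∅ + ∑ S ∈ 𝒜, g S := by
        rw [← add_sum_erase H.powerset g (empty_mem_powerset H)]
        congr 1
        symm
        apply sum_subset
        · intro S hS
          rw [h𝒜, mem_filter, hmem𝒮] at hS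
          rw [mem_erase, mem_powerset]
          exact ⟨hS.1.2.ne_empty, hS.2⟩
        · intro S hS hnS
          rw [mem_erase, mem_powerset] at hS
          by_contra hgS
          apply hnS
          rw [h𝒜, mem_filter, hmem𝒮]
          exact ⟨⟨hgS, nonempty_iff_ne_empty.mpr hS.1⟩, hS.2⟩
      have hA : 1 ≤ ∑ S ∈ 𝒜, 2 * g S := by
        have := hgF H hH
        rw [← mul_sum]
        linarith
      by_cases hbig : ∃ M ∈ I, 1 ≤ Γ M
      · obtain ⟨M, hM, hΓM⟩ := hbig
        have hwM : w M = 1 := min_eq_left hΓM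
        calc (1 : ℝ) = w M := hwM.symm
          _ ≤ ∑ S ∈ I, w S :=
            single_le_sum (f := w) (fun S _ => le_min zero_le_one (hΓ0 S)) hM
      · push Not at hbig
        have hwΓ : ∀ M ∈ I, w M = Γ M := fun M hM => min_eq_right (hbig M hM).le
        rw [sum_congr rfl hwΓ]
        have hsub : 𝒜 ⊆ I.biUnion (fun M => 𝒮.filter (fun S => S ⊆ M)) := by
          intro S hS
          obtain ⟨M, hSM, hMmax⟩ := 𝒜.exists_le_maximal hS
          rw [mem_biUnion]
          refine ⟨M, ?_, ?_⟩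
          · rw [hI, mem_filter]
            exact ⟨hMmax.prop, fun M' hM' hMM' => hMmax.le_of_ge hM' hMM'⟩
          · rw [mem_filter]
            exact ⟨h𝒜𝒮 hS, hSM⟩
        calc (1 : ℝ) ≤ ∑ S ∈ 𝒜, 2 * g S := hA
          _ ≤ ∑ S ∈ I.biUnion (fun M => 𝒮.filter (fun S => S ⊆ M)), 2 * g S :=
            sum_le_sum_of_subset_of_nonneg hsub
              (fun S _ _ => by have := hg0 S; positivity)
          _ ≤ ∑ M ∈ I, ∑ S ∈ 𝒮.filter (fun S => S ⊆ M), 2 * g S :=
            sum_biUnion_le_sum _ _ _ (fun _ _ S _ => by have := hg0 S; positivity)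
  · have : p / 6144 = q / 1536 := by simp only [hq]; ring
    rw [this]
    exact hGcost

end Vale.Agent.Lib.P034
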